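import Mathlib.Data.ZMod.Basic
import Mathlib.Data.Nat.Prime.Basic
import Mathlib.Algebra.BigOperators.Group.Finset.Basic
import Mathlib.Tactic

/-! Functions on `ZMod n`: from difference functions and periodic functions to all functions. -/

namespace Vale.Agent.P329.H211

/-- The difference `Φ v - Φ (v + d)`. -/
def df {n : ℕ} (d : ZMod n) (Φ : ZMod n → ℤ) : ZMod n → ℤ := fun v => Φ v - Φ (v + d)

/-- Iterated difference along a list. -/
def dl {n : ℕ} (L : List (ZMod n)) (Φ : ZMod n → ℤ) : ZMod n → ℤ := L.foldr df Φ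

theorem dl_cons {n : ℕ} (d : ZMod n) (L : List (ZMod n)) (Φ : ZMod n → ℤ) :
    dl (d :: L) Φ = df d (dl L Φ) := rfl

theorem dl_shift {n : ℕ} (L : List (ZMod n)) (a : ZMod n) (Φ : ZMod n → ℤ) :
    dl L (fun v => Φ (v + a)) = fun v => dl L Φ (v + a) := by
  induction L with
  | nil => rfl
  | cons d L ih =>
    rw [dl_cons, dl_cons, ih]
    funext v
    simp only [df]
    rw [add_right_comm]

theorem df_comm {n : ℕ} (d e : ZMod n) (Φ : ZMod n → ℤ) : df e (df d Φ) = df d (df e Φ) := by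
  funext v
  simp only [df]
  rw [add_right_comm v e d]
  ring

theorem exists_df {n : ℕ} (L : List (ZMod n)) (Φ : ZMod n → ℤ) (d : ZMod n) (hd : d ∈ L) :
    ∃ Ψ, dl L Φ = df d Ψ := by
  induction L with
  | nil => simp at hd
  | cons e L ih =>
    rcases List.mem_cons.mp hd with h | h
    · exact ⟨dl L Φ, by rw [dl_cons, h]⟩
    · obtain ⟨Ψ, hΨ⟩ := ih h
      exact ⟨df e Ψ, by rw [dl_cons, hΨ, df_comm]⟩

theorem sum_df {n : ℕ} [NeZero n] (t : ZMod n → Bool) (d : ZMod n) (ht : ∀ v, t (v + d) = t v)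
    (Ψ : ZMod n → ℤ) : ∑ r : ZMod n, (if t r = true then df d Ψ (r - 1) else 0) = 0 := by
  have h1 : ∀ r : ZMod n, (if t r = true then df d Ψ (r - 1) else 0)
      = (if t r = true then Ψ (r - 1) else 0)
        - (fun s : ZMod n => if t s = true then Ψ (s - 1) else 0) (r + d) := by
    intro r
    simp only [df, ht]
    have e : r - 1 + d = r + d - 1 := by ring
    rw [e]
    split_ifs <;> simp
  rw [Finset.sum_congr rfl (fun r _ => h1 r), Finset.sum_sub_distrib]
  have h2 : ∑ x : ZMod n, (fun s : ZMod n => if t s = true then Ψ (s - 1) else 0) (x + d)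
      = ∑ x : ZMod n, (if t x = true then Ψ (x - 1) else 0) :=
    Equiv.sum_comp (Equiv.addRight d) (fun s : ZMod n => if t s = true then Ψ (s - 1) else 0)
  rw [h2, sub_self]

theorem sum_mem {n : ℕ} (K : (ZMod n → ℤ) → Prop)
    (hadd : ∀ Φ Ψ, K Φ → K Ψ → K (fun v => Φ v + Ψ v)) (h0 : K (fun _ => 0))
    {ι : Type} (s : Finset ι) (f : ι → ZMod n → ℤ) (hf : ∀ i ∈ s, K (f i)) :
    K (fun v => ∑ i ∈ s, f i v) := by
  classical
  induction s using Finset.induction_on with
  | empty => simpa using h0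
  | insert a s ha ih =>
    have h1 := hadd (f a) (fun v => ∑ i ∈ s, f i v) (hf a (Finset.mem_insert_self a s))
      (ih (fun i hi => hf i (Finset.mem_insert_of_mem hi)))
    have h2 : (fun v => ∑ i ∈ insert a s, f i v) = fun v => f a v + ∑ i ∈ s, f i v := by
      funext v
      rw [Finset.sum_insert ha]
    rw [h2]
    exact h1

theorem step {n : ℕ} [NeZero n] (K : (ZMod n → ℤ) → Prop)
    (hadd : ∀ Φ Ψ, K Φ → K Ψ → K (fun v => Φ v + Ψ v))
    (hmul : ∀ (c : ℤ) Φ, K Φ → K (fun v => c * Φ v))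
    (hdiv : ∀ (c : ℕ) Φ, 0 < c → K (fun v => (c : ℤ) * Φ v) → K Φ)
    (q : ℕ) (hq : q.Prime) (hqn : q ∣ n)
    (hper : ∀ Φ : ZMod n → ℤ, (∀ v, Φ (v + ((n / q : ℕ) : ZMod n)) = Φ v) → K Φ)
    (L : List (ZMod n)) (h : ∀ Φ, K (dl (((n / q : ℕ) : ZMod n) :: L) Φ)) (Φ : ZMod n → ℤ) :
    K (dl L Φ) := by
  have hqd : (q : ZMod n) * ((n / q : ℕ) : ZMod n) = 0 := by
    rw [← Nat.cast_mul, Nat.mul_div_cancel' hqn, ZMod.natCast_self]
  generalize ((n / q : ℕ) : ZMod n) = d at hper h hqd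
  have h0 : K (fun _ => 0) := by
    have := hmul 0 _ (h Φ)
    simpa using this
  -- the periodic part
  have hA : K (fun v => ∑ j ∈ Finset.range q, dl L Φ (v + (j : ZMod n) * d)) := by
    apply hper
    intro v
    have e1 : ∀ j : ℕ, v + d + (j : ZMod n) * d = v + ((j + 1 : ℕ) : ZMod n) * d := by
      intro j
      push_cast
      ring
    simp only [e1]
    have e2 := Finset.sum_range_succ (fun j : ℕ => dl L Φ (v + (j : ZMod n) * d)) q
    have e3 := Finset.sum_range_succ' (fun j : ℕ => dl L Φ (v + (j : ZMod n) * d)) q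
    have e4 : dl L Φ (v + (q : ZMod n) * d) = dl L Φ (v + ((0 : ℕ) : ZMod n) * d) := by
      rw [hqd]
      simp
    linarith [e2, e3, e4]
  -- the difference part
  have hB : K (fun v => ∑ j ∈ Finset.range q, ∑ i ∈ Finset.range j,
      df d (dl L Φ) (v + (i : ZMod n) * d)) := by
    apply sum_mem K hadd h0
    intro j _
    apply sum_mem K hadd h0
    intro i _
    have := h (fun v => Φ (v + (i : ZMod n) * d))
    rw [dl_shift, dl_cons] at this
    exact this
  refine hdiv q _ hq.pos ?_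
  have hC := hadd _ _ hA hB
  have e : (fun v => (q : ℤ) * dl L Φ v) = fun v =>
      (∑ j ∈ Finset.range q, dl L Φ (v + (j : ZMod n) * d))
        + ∑ j ∈ Finset.range q, ∑ i ∈ Finset.range j, df d (dl L Φ) (v + (i : ZMod n) * d) := by
    funext v
    rw [← Finset.sum_add_distrib]
    have e1 : ∀ j ∈ Finset.range q, dl L Φ (v + (j : ZMod n) * d)
        + ∑ i ∈ Finset.range j, df d (dl L Φ) (v + (i : ZMod n) * d) = dl L Φ v := by
      intro j _
      have e2 : ∀ i ∈ Finset.range j, df d (dl L Φ) (v + (i : ZMod n) * d)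
          = (fun k : ℕ => dl L Φ (v + (k : ZMod n) * d)) i
            - (fun k : ℕ => dl L Φ (v + (k : ZMod n) * d)) (i + 1) := by
        intro i _
        simp only [df]
        congr 2
        push_cast
        ring
      rw [Finset.sum_congr rfl e2, Finset.sum_range_sub']
      simp
    rw [Finset.sum_congr rfl e1]
    simp
  rw [e]
  exact hC

/-- A class of functions closed under addition, integer multiples and division which contains the
periodic functions and the functions orthogonal to all periodic 0-1 patterns contains all. -/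
theorem all_mem {n : ℕ} [NeZero n] (K : (ZMod n → ℤ) → Prop)
    (hadd : ∀ Φ Ψ, K Φ → K Ψ → K (fun v => Φ v + Ψ v))
    (hmul : ∀ (c : ℤ) Φ, K Φ → K (fun v => c * Φ v))
    (hdiv : ∀ (c : ℕ) Φ, 0 < c → K (fun v => (c : ℤ) * Φ v) → K Φ)
    (hper : ∀ q : ℕ, q.Prime → q ∣ n → ∀ Φ : ZMod n → ℤ,
      (∀ v, Φ (v + ((n / q : ℕ) : ZMod n)) = Φ v) → K Φ)
    (hdelta : ∀ Φ : ZMod n → ℤ, (∀ t : ZMod n → Bool,
      (∃ q : ℕ, q.Prime ∧ q ∣ n ∧ ∀ v, t (v + ((n / q : ℕ) : ZMod n)) = t v) →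
        ∑ r : ZMod n, (if t r = true then Φ (r - 1) else 0) = 0) → K Φ)
    (Φ : ZMod n → ℤ) : K Φ := by
  -- descend along a list of elements `n / q`
  have key : ∀ Q : List ℕ, (∀ q ∈ Q, q.Prime ∧ q ∣ n) →
      (∀ Φ, K (dl (Q.map (fun q => ((n / q : ℕ) : ZMod n))) Φ)) → ∀ Φ, K Φ := by
    intro Q
    induction Q with
    | nil => intro _ h Φ; exact h Φ
    | cons q Q ih =>
      intro hQ h
      have hq := hQ q (List.mem_cons_self)
      exact ih (fun p hp => hQ p (List.mem_cons_of_mem _ hp))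
        (fun Φ => step K hadd hmul hdiv q hq.1 hq.2 (hper q hq.1 hq.2) _ h Φ)
  refine key n.primeFactors.toList ?_ ?_ Φ
  · intro q hq
    rw [Finset.mem_toList, Nat.mem_primeFactors] at hq
    exact ⟨hq.1, hq.2.1⟩
  · intro Φ
    apply hdelta
    rintro t ⟨q, hq, hqn, ht⟩
    have hm : ((n / q : ℕ) : ZMod n)
        ∈ (n.primeFactors.toList.map (fun q => ((n / q : ℕ) : ZMod n))) := by
      apply List.mem_map.mpr
      refine ⟨q, ?_, rfl⟩
      rw [Finset.mem_toList, Nat.mem_primeFactors]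
      exact ⟨hq, hqn, NeZero.ne n⟩
    obtain ⟨Ψ, hΨ⟩ := exists_df _ Φ _ hm
    rw [hΨ]
    exact sum_df t _ ht Ψ

end Vale.Agent.P329.H211
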