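import Vale.Agent.P329.R3.H211.Exc

/-! The automaton which counts the returns to `r` without a visit of `0` in between. -/

set_option linter.all false

namespace Vale.Agent.P329.H211

open Vale.Agent.P329

section

variable {α : Type} {n : ℕ} [NeZero n] {φ : α → ℤ} {b : α} {r : ZMod n}

open Classical in
/-- has the value `-r` been visited -/
noncomputable def mu4 (φ : α → ℤ) (r u : ZMod n) (z : Bool) (x : α) : Bool :=
  if u + (φ x : ZMod n) = -r then true else z

/-- silent returns: letter `b` and no visit of `-r` -/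
def sil4 (b : α) (u : ZMod n) (z : Bool) (x : α) : Prop := x = b ∧ z = false

theorem mu4_true (u : ZMod n) (x : α) : mu4 φ r u true x = true := by
  unfold mu4
  split_ifs <;> rfl

theorem from_true {w : List α} : ∀ {u : ZMod n} {s : ZMod n × Bool}, u ≠ 0 →
    run (exc φ false (mu4 φ r) (sil4 b)) (u, true) w = some s → s.1 ≠ 0 := by
  induction w with
  | nil => intro u s hu h; cases h; exact hu
  | cons x w ih =>
    intro u s hu h
    obtain ⟨s', h1, h2⟩ := run_cons_eq_some h
    rcases exc_some h1 with ⟨h3, rfl⟩ | ⟨_, h4, _⟩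
    · simp only at h3 h2
      rw [mu4_true] at h2
      exact ih h3 h2
    · exact absurd h4.2.symm Bool.false_ne_true

theorem hpot4 (v : ZMod n) (z : Bool) (x : α) :
    mu4 φ r v z x = z ∨ z.toNat < (mu4 φ r v z x).toNat := by
  by_cases h : v + (φ x : ZMod n) = -r
  · have h1 : mu4 φ r v z x = true := if_pos h
    rw [h1]
    cases z
    · right; exact Nat.zero_lt_one
    · left; rfl
  · left; exact if_neg h

theorem noCyc4 (hφ : ∀ x, φ x = 0 ∨ φ x = 1 ∨ φ x = -1) (hr : r ≠ 0) :
    NoCyc (exc φ false (mu4 φ r) (sil4 b)) := by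
  classical
  apply exc_noCyc hφ (fun z : Bool => z.toNat) (fun v z x _ _ => hpot4 v z x)
  intro z k hk hz h
  have h1 : ∀ u u', pw k z = u ++ u' → r + (sm φ u : ZMod n) ≠ 0 := by
    intro u u' hu h2
    rw [hu] at h
    obtain ⟨s, h3, h4⟩ := run_append_eq_some h
    have h5 : s.1 = -r := by
      rw [exc_run_val h3]
      rw [zero_add]
      exact (neg_eq_of_add_eq_zero_right h2).symm
    have hu0 : u ≠ [] := by
      intro hu0
      subst hu0
      cases h3
      exact hr (neg_eq_zero.mp h5.symm)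
    obtain ⟨u1, x, rfl⟩ := List.eq_nil_or_concat' u |>.resolve_left hu0
    obtain ⟨s1, h6, h7⟩ := run_append_eq_some h3
    obtain ⟨s2, h8, h9⟩ := run_cons_eq_some h7
    cases h9
    rcases exc_some h8 with ⟨h10, rfl⟩ | ⟨_, _, rfl⟩
    · have h11 : mu4 φ r s1.1 s1.2 x = true := if_pos h5
      rw [h11] at h4
      exact from_true h10 h4 rfl
    · exact hr (neg_eq_zero.mp h5.symm)
  have h2 := sm_avoid φ hφ (pw k z) r h1
  have h3 := exc_run_val h
  rw [zero_add] at h3
  rw [← h3, add_zero, sub_self, sm_pw] at h2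
  rcases mul_eq_zero.mp h2 with h4 | h4
  · have : (k : ℤ) ≠ 0 := by exact_mod_cast hk.ne'
    exact this h4
  · rw [h4, Int.cast_zero] at hz; exact hz rfl

theorem noCyc4_false (hφ : ∀ x, φ x = 0 ∨ φ x = 1 ∨ φ x = -1) :
    NoCyc (exc (n := n) φ false (mu4 φ r) (fun _ _ _ => False)) := by
  classical
  apply exc_noCyc hφ (fun z : Bool => z.toNat) (fun v z x _ _ => hpot4 v z x)
  intro z k hk hz h
  -- the walk returns to zero at the end of a nonempty word: not silent
  have hpz : pw k z ≠ [] := by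
    intro h0
    have h1 := sm_pw φ k z
    rw [h0, sm_nil] at h1
    rcases mul_eq_zero.mp h1.symm with h4 | h4
    · have : (k : ℤ) ≠ 0 := by exact_mod_cast hk.ne'
      exact this h4
    · rw [h4, Int.cast_zero] at hz; exact hz rfl
  obtain ⟨u1, x, hu⟩ := List.eq_nil_or_concat' (pw k z) |>.resolve_left hpz
  rw [hu] at h
  obtain ⟨s1, h6, h7⟩ := run_append_eq_some h
  obtain ⟨s2, h8, h9⟩ := run_cons_eq_some h7
  cases h9
  rcases exc_some h8 with ⟨h10, h11⟩ | ⟨_, h11, _⟩
  · exact h10 (congrArg Prod.fst h11).symm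
  · exact h11

/-- the number of returns to `r` by `b` without a visit of `0` is known -/
theorem known4 [Finite α] (hφ : ∀ x, φ x = 0 ∨ φ x = 1 ∨ φ x = -1) (hr : r ≠ 0)
    (s : ZMod n × Bool) :
    KnZ (Sm φ false (mu4 φ r) (fun s x => s.1 + (φ x : ZMod n) = 0 ∧ sil4 b s.1 s.2 x) s) :=
  known_sil (noCyc4_false hφ) (noCyc4 hφ hr) s

end

end Vale.Agent.P329.H211
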