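import Vale.Agent.P329.Bdl.B2

/-! Automata reading the excursions from `0` of a walk in `ZMod n` with steps `0, 1, -1`. -/

set_option linter.all false

namespace Vale.Agent.P329.H211

open Vale.Agent.P329

section arith

variable {n : ℕ} [NeZero n]

theorem val_add_one {v : ZMod n} (h : v + 1 ≠ 0) : (v + 1).val = v.val + 1 := by
  have h1 : ((v.val + 1 : ℕ) : ZMod n) = v + 1 := by
    rw [Nat.cast_add, ZMod.natCast_val, ZMod.cast_id', id, Nat.cast_one]
  have h2 : v.val < n := ZMod.val_lt v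
  have h3 : v.val + 1 < n := by
    rcases Nat.lt_or_ge (v.val + 1) n with h3 | h3
    · exact h3
    · exfalso
      have h4 : v.val + 1 = n := by omega
      rw [h4, ZMod.natCast_self] at h1
      exact h h1.symm
  rw [← h1, ZMod.val_cast_of_lt h3]

theorem val_add_one' {v : ZMod n} (h : v + 1 = 0) : v.val + 1 = n := by
  have h2 : v.val < n := ZMod.val_lt v
  by_contra h3
  have h4 : v.val + 1 < n := by omega
  have h1 : ((v.val + 1 : ℕ) : ZMod n) = v + 1 := by
    rw [Nat.cast_add, ZMod.natCast_val, ZMod.cast_id', id, Nat.cast_one]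
  rw [h] at h1
  have h5 := ZMod.val_cast_of_lt h4
  rw [h1, ZMod.val_zero] at h5
  omega

theorem val_pos' {v : ZMod n} (h : v ≠ 0) : 0 < v.val := by
  rcases Nat.eq_zero_or_pos v.val with h1 | h1
  · exact absurd ((ZMod.val_eq_zero v).mp h1) h
  · exact h1

theorem val_sub_one {v : ZMod n} (h : v ≠ 0) : (v - 1).val + 1 = v.val := by
  have h1 := val_add_one (v := v - 1) (by rwa [sub_add_cancel])
  rw [sub_add_cancel] at h1
  exact h1.symm

/-- one step of the walk away from `0` -/
theorem val_step3 {v : ZMod n} {e : ℤ} (he : e = 0 ∨ e = 1 ∨ e = -1) (h0 : v ≠ 0)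
    (h : v + (e : ZMod n) ≠ 0) : ((v + (e : ZMod n)).val : ℤ) = v.val + e := by
  rcases he with rfl | rfl | rfl
  · simp
  · have h1 : v + ((1 : ℤ) : ZMod n) = v + 1 := by simp
    rw [h1] at h ⊢
    rw [val_add_one h]; push_cast; ring
  · have h1 : v + ((-1 : ℤ) : ZMod n) = v - 1 := by push_cast; ring
    rw [h1] at h ⊢
    have h2 := val_sub_one h0
    rw [← h2]; push_cast; ring

end arith

section sm

variable {α : Type}

/-- sum of the letter values -/
def sm (φ : α → ℤ) (w : List α) : ℤ := (w.map φ).sum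

variable (φ : α → ℤ)

theorem sm_nil : sm φ [] = 0 := rfl
theorem sm_cons (x : α) (w : List α) : sm φ (x :: w) = φ x + sm φ w := by
  simp [sm]
theorem sm_append (u v : List α) : sm φ (u ++ v) = sm φ u + sm φ v := by
  simp [sm]
theorem sm_pw (k : ℕ) (z : List α) : sm φ (pw k z) = k * sm φ z := by
  induction k with
  | zero => simp [pw_zero, sm_nil]
  | succ k ih => rw [pw_succ, sm_append, ih]; push_cast; ring

/-- a path avoiding `c` has the displacement given by the representatives -/
theorem sm_avoid {n : ℕ} [NeZero n] (hφ : ∀ x, φ x = 0 ∨ φ x = 1 ∨ φ x = -1) (w : List α) :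
    ∀ v : ZMod n, (∀ u u', w = u ++ u' → v + (sm φ u : ZMod n) ≠ 0) →
      sm φ w = ((v + (sm φ w : ZMod n)).val : ℤ) - v.val := by
  induction w with
  | nil => intro v h; simp [sm_nil]
  | cons x w ih =>
    intro v h
    have h0 : v ≠ 0 := by simpa [sm_nil] using h [] (x :: w) rfl
    have h1 : v + (φ x : ZMod n) ≠ 0 := by simpa [sm_cons, sm_nil] using h [x] w rfl
    have h2 := ih (v + (φ x : ZMod n)) (by
      intro u u' hu
      have := h (x :: u) u' (by rw [hu]; rfl)
      rw [sm_cons] at this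
      push_cast at this
      rwa [← add_assoc] at this)
    rw [sm_cons]
    push_cast
    rw [← add_assoc]
    have h3 := val_step3 (hφ x) h0 h1
    linarith

theorem pw_prefix {z : List α} {k : ℕ} : ∀ {u v : List α}, pw k z = u ++ v →
    u = pw k z ∨ ∃ i u' v', z = u' ++ v' ∧ u = pw i z ++ u' := by
  induction k with
  | zero =>
    intro u v h
    left
    rw [pw_zero] at h ⊢
    exact (List.append_eq_nil_iff.mp h.symm).1
  | succ k ih =>
    intro u v h
    rw [pw_succ] at h
    rcases List.append_eq_append_iff.mp h with ⟨a, h1, h2⟩ | ⟨a, h1, h2⟩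
    · -- u = z ++ a
      rcases ih h2 with h3 | ⟨i, u', v', h3, h4⟩
      · left; rw [h1, h3, pw_succ]
      · right
        refine ⟨i + 1, u', v', h3, ?_⟩
        rw [h1, h4, pw_succ, List.append_assoc]
    · right
      exact ⟨0, u, a, h1, by rw [pw_zero, List.nil_append]⟩

end sm

section exc

variable {α : Type} {n : ℕ} [NeZero n] (φ : α → ℤ) {τ : Type} (m0 : τ)
  (μ : ZMod n → τ → α → τ) (sil : ZMod n → τ → α → Prop)

open Classical in
/-- The excursion automaton: a return to `0` is an event unless it is silent. -/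
noncomputable def exc (s : ZMod n × τ) (x : α) : Option (ZMod n × τ) :=
  if s.1 + (φ x : ZMod n) = 0 then (if sil s.1 s.2 x then some (0, m0) else none)
  else some (s.1 + (φ x : ZMod n), μ s.1 s.2 x)

open Classical in
/-- the total automaton -/
noncomputable def tot (s : ZMod n × τ) (x : α) : ZMod n × τ :=
  if s.1 + (φ x : ZMod n) = 0 then (0, m0) else (s.1 + (φ x : ZMod n), μ s.1 s.2 x)

open Classical in
/-- number of times at which `E` holds along the total automaton -/
noncomputable def Sm (E : ZMod n × τ → α → Prop) : ZMod n × τ → List α → ℤ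
  | _, [] => 0
  | s, x :: w => (if E s x then 1 else 0) + Sm E (tot φ m0 μ s x) w

variable {φ m0 μ sil}

theorem exc_ne {s : ZMod n × τ} {x : α} (h : s.1 + (φ x : ZMod n) ≠ 0) :
    exc φ m0 μ sil s x = some (s.1 + (φ x : ZMod n), μ s.1 s.2 x) := if_neg h
theorem exc_sil {s : ZMod n × τ} {x : α} (h : s.1 + (φ x : ZMod n) = 0) (h1 : sil s.1 s.2 x) :
    exc φ m0 μ sil s x = some (0, m0) := by rw [exc, if_pos h, if_pos h1]
theorem exc_none {s : ZMod n × τ} {x : α} (h : s.1 + (φ x : ZMod n) = 0) (h1 : ¬ sil s.1 s.2 x) :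
    exc φ m0 μ sil s x = none := by rw [exc, if_pos h, if_neg h1]

theorem exc_some {s t : ZMod n × τ} {x : α} (h : exc φ m0 μ sil s x = some t) :
    (s.1 + (φ x : ZMod n) ≠ 0 ∧ t = (s.1 + (φ x : ZMod n), μ s.1 s.2 x)) ∨
    (s.1 + (φ x : ZMod n) = 0 ∧ sil s.1 s.2 x ∧ t = (0, m0)) := by
  by_cases h0 : s.1 + (φ x : ZMod n) = 0
  · right
    by_cases h1 : sil s.1 s.2 x
    · rw [exc_sil h0 h1] at h; cases h; exact ⟨h0, h1, rfl⟩
    · rw [exc_none h0 h1] at h; cases h
  · left
    rw [exc_ne h0] at h; cases h; exact ⟨h0, rfl⟩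

theorem exc_val {s t : ZMod n × τ} {x : α} (h : exc φ m0 μ sil s x = some t) :
    t.1 = s.1 + (φ x : ZMod n) := by
  rcases exc_some h with ⟨_, rfl⟩ | ⟨h0, _, rfl⟩
  · rfl
  · exact h0.symm

theorem exc_run_val {w : List α} : ∀ {s t : ZMod n × τ}, run (exc φ m0 μ sil) s w = some t →
    t.1 = s.1 + (sm φ w : ZMod n) := by
  induction w with
  | nil => intro s t h; cases h; simp [sm_nil]
  | cons x w ih =>
    intro s t h
    obtain ⟨s', h1, h2⟩ := run_cons_eq_some h
    rw [ih h2, exc_val h1, sm_cons]; push_cast; ring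

theorem exc_run_zero {w : List α} (hw : w ≠ []) {s t : ZMod n × τ}
    (h : run (exc φ m0 μ sil) s w = some t) (h0 : t.1 = 0) : t = (0, m0) := by
  obtain ⟨u, x, rfl⟩ := List.eq_nil_or_concat' w |>.resolve_left hw
  obtain ⟨s', h1, h2⟩ := run_append_eq_some h
  obtain ⟨s'', h3, h4⟩ := run_cons_eq_some h2
  cases h4
  rcases exc_some h3 with ⟨h5, rfl⟩ | ⟨_, _, rfl⟩
  · exact absurd h0 h5
  · rfl

/-- along a path which avoids `0` the memory is constant or its potential increases -/
theorem exc_pot {pot : τ → ℕ} (hpot : ∀ v m x, v ≠ 0 → v + (φ x : ZMod n) ≠ 0 →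
    μ v m x = m ∨ pot m < pot (μ v m x)) {w : List α} : ∀ {s : ZMod n × τ},
    (∀ u u', w = u ++ u' → s.1 + (sm φ u : ZMod n) ≠ 0) →
    ∃ m, run (exc φ m0 μ sil) s w = some (s.1 + (sm φ w : ZMod n), m) ∧
      (m = s.2 ∨ pot s.2 < pot m) := by
  induction w with
  | nil => intro s h; exact ⟨s.2, by simp [sm_nil, run_nil], Or.inl rfl⟩
  | cons x w ih =>
    intro s h
    have h0 : s.1 ≠ 0 := by simpa [sm_nil] using h [] (x :: w) rfl
    have h1 : s.1 + (φ x : ZMod n) ≠ 0 := by simpa [sm_cons, sm_nil] using h [x] w rfl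
    obtain ⟨m, h2, h3⟩ := ih (s := (s.1 + (φ x : ZMod n), μ s.1 s.2 x)) (by
      intro u u' hu
      have := h (x :: u) u' (by rw [hu]; rfl)
      rw [sm_cons] at this
      push_cast at this
      rwa [← add_assoc] at this)
    refine ⟨m, ?_, ?_⟩
    · rw [run_cons_some _ (exc_ne h1), h2, sm_cons]
      push_cast
      rw [← add_assoc]
    · rcases hpot s.1 s.2 x h0 h1 with h4 | h4
      · rw [h4] at h3; exact h3
      · right
        rcases h3 with h3 | h3
        · rw [h3]; exact h4
        · exact h4.trans h3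

/-- Main criterion: no nontrivial cycles if no cycle word with nonzero value starts at the base. -/
theorem exc_noCyc (hφ : ∀ x, φ x = 0 ∨ φ x = 1 ∨ φ x = -1) (pot : τ → ℕ)
    (hpot : ∀ v m x, v ≠ 0 → v + (φ x : ZMod n) ≠ 0 → μ v m x = m ∨ pot m < pot (μ v m x))
    (H : ∀ (z : List α) (k : ℕ), 0 < k → (sm φ z : ZMod n) ≠ 0 →
      run (exc φ m0 μ sil) (0, m0) (pw k z) ≠ some (0, m0)) : NoCyc (exc φ m0 μ sil) := by
  apply noCyc_of
  intro z s k hz hk hs
  have hpz : pw k z ≠ [] := pw_ne_nil hk hz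
  by_cases hA : ∃ u v, pw k z = u ++ v ∧ s.1 + (sm φ u : ZMod n) = 0
  · obtain ⟨u, v, huv, hu0⟩ := hA
    have hkey : ∀ s' : ZMod n × τ, run (exc φ m0 μ sil) s' (pw k z) = some s' → s'.1 = s.1 →
        run (exc φ m0 μ sil) s' u = some (0, m0) := by
      intro s' h1 h2
      rw [huv] at h1
      obtain ⟨t, h3, h4⟩ := run_append_eq_some h1
      rw [h3]
      have h5 : t.1 = 0 := by rw [exc_run_val h3, h2, hu0]
      by_cases hu : u = []
      · subst hu
        cases h3
        rw [List.nil_append] at huv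
        rw [exc_run_zero (by rw [← huv]; exact hpz) h4 h5]
      · rw [exc_run_zero hu h3 h5]
    by_cases hz0 : (sm φ z : ZMod n) = 0
    · obtain ⟨s1, h1, h2⟩ := run_move hk hs 1
      rw [pw_succ, pw_zero, List.append_nil] at h1
      have h3 : s1.1 = s.1 := by rw [exc_run_val h1, hz0, add_zero]
      have h4 := hkey s1 h2 h3
      have h5 := hkey s hs rfl
      rw [huv] at h2 hs
      rw [run_append _ h4] at h2
      rw [run_append _ h5, h2] at hs
      cases hs
      exact h1
    · exfalso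
      rcases pw_prefix huv with h1 | ⟨i, u', v', h1, h2⟩
      · -- u = pw k z
        have h5 := hkey s hs rfl
        rw [h1, hs] at h5
        cases h5
        exact H z k hk hz0 hs
      · obtain ⟨s1, h3, h4⟩ := run_move hk hs i
        have h5 := hkey s hs rfl
        rw [h2, run_append _ h3] at h5
        have h6 := h4
        rw [h1] at h6
        obtain ⟨s2, h7, h8⟩ := run_rotate hk h6
        rw [h5] at h7
        cases h7
        refine H (v' ++ u') k hk ?_ h8
        rw [sm_append, add_comm, ← sm_append, ← h1]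
        exact hz0
  · push Not at hA
    obtain ⟨k', rfl⟩ : ∃ k', k = k' + 1 := ⟨k - 1, by omega⟩
    have hG : sm φ z = 0 := by
      have h1 := sm_avoid φ hφ (pw (k' + 1) z) s.1 (fun u u' h => hA u u' h)
      have h2 := exc_run_val hs
      rw [← h2, sub_self, sm_pw] at h1
      rcases mul_eq_zero.mp h1 with h3 | h3
      · exact absurd h3 (by positivity)
      · exact h3
    rw [pw_succ] at hs hA
    obtain ⟨m1, h1, h2⟩ := exc_pot (m0 := m0) (sil := sil) hpot (w := z) (s := s) (by
      intro u u' h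
      exact hA u (u' ++ pw k' z) (by rw [h, List.append_assoc]))
    have h3 := hs
    rw [run_append _ h1] at h3
    obtain ⟨m2, h4, h5⟩ := exc_pot (m0 := m0) (sil := sil) hpot (w := pw k' z)
      (s := (s.1 + (sm φ z : ZMod n), m1)) (by
      intro u u' h
      have := hA (z ++ u) u' (by rw [h, List.append_assoc])
      rw [sm_append] at this
      push_cast at this
      rwa [← add_assoc] at this)
    rw [h3] at h4
    have h6 : s.2 = m2 := congrArg Prod.snd (Option.some.inj h4)
    rw [h1, hG]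
    have h7 : m1 = s.2 := by
      rcases h2 with h2 | h2
      · exact h2
      · exfalso
        rcases h5 with h5 | h5
        · rw [← h6] at h5
          have h5' : s.2 = m1 := h5
          rw [← h5'] at h2
          exact lt_irrefl _ h2
        · rw [← h6] at h5
          exact lt_irrefl _ (h2.trans h5)
    rw [h7]
    simp

theorem cnt_eq_Sm (w : List α) : ∀ s : ZMod n × τ,
    (cnt (exc φ m0 μ sil) (0, m0) s w : ℤ) =
      Sm φ m0 μ (fun s x => s.1 + (φ x : ZMod n) = 0 ∧ ¬ sil s.1 s.2 x) s w := by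
  classical
  induction w with
  | nil => intro s; simp [cnt_nil, Sm]
  | cons x w ih =>
    intro s
    rw [Sm]
    by_cases h : s.1 + (φ x : ZMod n) = 0
    · have ht : tot φ m0 μ s x = (0, m0) := if_pos h
      by_cases h1 : sil s.1 s.2 x
      · rw [cnt_cons_some _ (exc_sil h h1), ih, if_neg (fun h2 => h2.2 h1), ht, zero_add]
      · rw [cnt_cons_none _ (exc_none h h1), if_pos ⟨h, h1⟩, ht]
        push_cast
        rw [ih]; ring
    · have ht : tot φ m0 μ s x = (s.1 + (φ x : ZMod n), μ s.1 s.2 x) := if_neg h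
      rw [cnt_cons_some _ (exc_ne h), ih, if_neg (fun h2 => h h2.1), ht, zero_add]

theorem fin_eq_tot (w : List α) : ∀ s : ZMod n × τ,
    fin (exc φ m0 μ sil) (0, m0) s w = w.foldl (tot φ m0 μ) s := by
  classical
  induction w with
  | nil => intro s; rfl
  | cons x w ih =>
    intro s
    rw [List.foldl_cons]
    by_cases h : s.1 + (φ x : ZMod n) = 0
    · have ht : tot φ m0 μ s x = (0, m0) := if_pos h
      by_cases h1 : sil s.1 s.2 x
      · rw [fin_cons_some _ (exc_sil h h1), ih, ht]
      · rw [fin_cons_none _ (exc_none h h1), ht, ih]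
    · have ht : tot φ m0 μ s x = (s.1 + (φ x : ZMod n), μ s.1 s.2 x) := if_neg h
      rw [fin_cons_some _ (exc_ne h), ih, ht]

theorem Sm_add {E E1 E2 : ZMod n × τ → α → Prop} (h : ∀ s x, E s x ↔ E1 s x ∨ E2 s x)
    (h12 : ∀ s x, ¬ (E1 s x ∧ E2 s x)) (w : List α) : ∀ s,
    Sm φ m0 μ E s w = Sm φ m0 μ E1 s w + Sm φ m0 μ E2 s w := by
  classical
  induction w with
  | nil => intro s; simp [Sm]
  | cons x w ih =>
    intro s
    rw [Sm, Sm, Sm, ih]
    have h1 := h s x
    have h2 := h12 s x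
    by_cases a : E1 s x
    · have b : ¬ E2 s x := fun b => h2 ⟨a, b⟩
      rw [if_pos (h1.mpr (Or.inl a)), if_pos a, if_neg b]; ring
    · by_cases b : E2 s x
      · rw [if_pos (h1.mpr (Or.inr b)), if_neg a, if_pos b]; ring
      · rw [if_neg (fun c => (h1.mp c).elim a b), if_neg a, if_neg b]; ring

theorem Sm_congr {E E1 : ZMod n × τ → α → Prop} (h : ∀ s x, E s x ↔ E1 s x) (s : ZMod n × τ)
    (w : List α) : Sm φ m0 μ E s w = Sm φ m0 μ E1 s w := by
  have : E = E1 := by funext s x; exact propext (h s x)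
  rw [this]

/-- numbers of silent returns are known -/
theorem known_sil [Finite α] [Finite τ] (h0 : NoCyc (exc φ m0 μ (fun _ _ _ => False)))
    (h1 : NoCyc (exc φ m0 μ sil)) (s : ZMod n × τ) :
    KnZ (Sm φ m0 μ (fun s x => s.1 + (φ x : ZMod n) = 0 ∧ sil s.1 s.2 x) s) := by
  have k0 := KnZ.of_event h0 (0, m0) s
  have k1 := KnZ.of_event h1 (0, m0) s
  apply (k0.sub k1).congr
  intro w
  rw [cnt_eq_Sm, cnt_eq_Sm]
  rw [Sm_add (E := fun s x => s.1 + (φ x : ZMod n) = 0 ∧ ¬ False)
    (E1 := fun s x => s.1 + (φ x : ZMod n) = 0 ∧ sil s.1 s.2 x)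
    (E2 := fun s x => s.1 + (φ x : ZMod n) = 0 ∧ ¬ sil s.1 s.2 x)]
  · ring
  · intro s x; tauto
  · intro s x; tauto

theorem known_fin [Finite α] [Finite τ] (h0 : NoCyc (exc φ m0 μ (fun _ _ _ => False)))
    (s : ZMod n × τ) (Ψ : ZMod n × τ → ℤ) : KnZ fun w => Ψ (w.foldl (tot φ m0 μ) s) := by
  apply (KnZ.of_kn (Kn.of_event h0 (0, m0) s) Ψ).congr
  intro w
  rw [fin_eq_tot]

end exc

end Vale.Agent.P329.H211
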