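import Vale.Agent.P329.R3.H211.Main
import Vale.Agent.P329.H112.Mon
import Vale.Agent.P329.H112.Cls

/-! The end theorem. -/

set_option linter.all false

namespace Vale.Agent.P329.H211

open Vale.Agent.P329 Vale.Agent.P329.H112

/-- The letter map takes values in `A`, `g A` and `g⁻¹ A` for an abelian normal subgroup `A`. -/
def StepMap {α G : Type} [Group G] (f : α → G) : Prop :=
  ∃ (A : Subgroup G) (g : G), A.Normal ∧ (∀ a ∈ A, ∀ b ∈ A, a * b = b * a) ∧
    ∀ x, f x ∈ A ∨ g⁻¹ * f x ∈ A ∨ g * f x ∈ A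

theorem step_known {α G : Type} [Finite α] [Group G] [Finite G] {f : α → G} (hf : StepMap f)
    (h : G) : SH 1 {w : List α | (w.map f).prod = h} := by
  obtain ⟨A, g, hN, hA, hx⟩ := hf
  exact group_cyc core A hN hA g f hx h

theorem div_known {α G : Type} [Finite α] [Group G] (hG : DividesProduct G) (f : α → G)
    (h : G) : SH 1 {w : List α | (w.map f).prod = h} := by
  obtain ⟨_, h2, _, _, _⟩ := H320.final H112.core_all
  obtain ⟨ι, hι, H, hg, hH, D, π, hπ⟩ := hG
  haveI : ∀ i, Finite (H i) := fun i => (hH i).1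
  exact (h2 α ι H (fun i => (hH i).2) D G π hπ f).1 {h}

theorem pi_known {α : Type} [Finite α] {ι : Type} [Finite ι] {H : ι → Type}
    [∀ i, Group (H i)] [∀ i, Finite (H i)] (F : α → ∀ i, H i)
    (hF : ∀ i, DividesProduct (H i) ∨ StepMap fun x => F x i) (q q' : ∀ i, H i) :
    SH 1 {w : List α | w.foldl (fun s a => s * F a) q = q'} := by
  have h1 : ∀ i, SH 1 {w : List α | (w.map fun x => F x i).prod = (q i)⁻¹ * q' i} := by
    intro i
    rcases hF i with h | h
    · exact div_known h _ _
    · exact step_known h _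
  refine Eq.mp (congrArg (SH 1) ?_) (SH.iInter h1)
  ext w
  rw [Set.mem_ofPred_eq, H157.foldl_group, Set.mem_iInter]
  have h2 : ∀ i, (w.map F).prod i = (w.map fun x => F x i).prod := by
    intro i
    induction w with
    | nil => rfl
    | cons a w ih => rw [List.map_cons, List.prod_cons, Pi.mul_apply, ih, List.map_cons,
        List.prod_cons]
  constructor
  · intro h3
    funext i
    have h4 := h3 i
    rw [Set.mem_ofPred_eq, ← h2] at h4
    rw [Pi.mul_apply, h4, mul_inv_cancel_left]
  · intro h3 i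
    rw [Set.mem_ofPred_eq, ← h2, eq_inv_mul_iff_mul_eq, ← Pi.mul_apply, h3]

theorem mon_known {α : Type} [Finite α] {ι : Type} [Finite ι] {H : ι → Type}
    [∀ i, Group (H i)] [∀ i, Finite (H i)] (F : α → ∀ i, H i)
    (hF : ∀ i, DividesProduct (H i) ∨ StepMap fun x => F x i) {M : Type} [Monoid M] [Finite M]
    (φ : α → M) (hap : ∀ v : List α, v ≠ [] → (v.map F).prod = 1 →
      ∃ k, ((v.map φ).prod) ^ (k + 1) = ((v.map φ).prod) ^ k) (S : Set M) :
    SH 1 {w : List α | (w.map φ).prod ∈ S} := by
  refine mal (fun s a => s * F a) (fun q q' => pi_known F hF q q') (1 : ∀ i, H i) φ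
    (fun u v hv huv => hap v hv ?_) S
  rw [H157.foldl_group, H157.foldl_group, one_mul, one_mul, List.map_append, List.prod_append]
    at huv
  exact mul_eq_left.mp huv

end Vale.Agent.P329.H211
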