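import Vale.Agent.P329.Bdl.B2

/-! From the counting functions on cyclic groups to groups with an abelian normal subgroup. -/

namespace Vale.Agent.P329.H211

open Vale.Agent.P329

/-- the statement proved in the other files -/
def Core : Prop := ∀ (α : Type) [Finite α] (n : ℕ) [NeZero n] (φ : α → ℤ),
  (∀ x, φ x = 0 ∨ φ x = 1 ∨ φ x = -1) → ∀ (b : α) (Φ : ZMod n → ℤ) (g : ZMod n),
    KnZ (W (adda fun x => (φ x : ZMod n)) b Φ g)

theorem group_cyc (hcore : Core) {α : Type} [Finite α] {G : Type} [Group G] [Finite G]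
    (A : Subgroup G) (hN : A.Normal) (hA : ∀ a ∈ A, ∀ b ∈ A, a * b = b * a) (g : G)
    (f : α → G) (hf : ∀ x, f x ∈ A ∨ g⁻¹ * f x ∈ A ∨ g * f x ∈ A) :
    Kn fun w : List α => (w.map f).prod := by
  classical
  let cA : CommGroup A :=
    { (inferInstance : Group A) with mul_comm := fun a b => Subtype.ext (hA a a.2 b b.2) }
  obtain ⟨n, hn⟩ : ∃ n : ℕ, n = orderOf (g : G ⧸ A) := ⟨_, rfl⟩
  have hne : NeZero n := ⟨by rw [hn]; exact (orderOf_pos (g : G ⧸ A)).ne'⟩
  let φ : α → ℤ := fun x => if f x ∈ A then 0 else if g⁻¹ * f x ∈ A then 1 else -1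
  have hφ : ∀ x, φ x = 0 ∨ φ x = 1 ∨ φ x = -1 := by
    intro x
    simp only [φ]
    split_ifs
    · exact Or.inl rfl
    · exact Or.inr (Or.inl rfl)
    · exact Or.inr (Or.inr rfl)
  have hfφ : ∀ x, (f x : G ⧸ A) = (g : G ⧸ A) ^ φ x := by
    intro x
    simp only [φ]
    split_ifs with h1 h2
    · rw [zpow_zero]
      exact (QuotientGroup.eq_one_iff _).mpr h1
    · rw [zpow_one]
      exact ((QuotientGroup.eq).mpr h2).symm
    · have h3 : g * f x ∈ A := by
        rcases hf x with h | h | h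
        · exact absurd h h1
        · exact absurd h h2
        · exact h
      rw [zpow_neg, zpow_one]
      have h4 : (g : G ⧸ A) * (f x : G ⧸ A) = 1 := (QuotientGroup.eq_one_iff (g * f x)).mpr h3
      exact eq_inv_of_mul_eq_one_right h4
  let s : ZMod n → G := fun v => g ^ v.val
  have hmem : ∀ (v : ZMod n) (y : α), s v * f y * (s (v + (φ y : ZMod n)))⁻¹ ∈ A := by
    intro v y
    rw [← QuotientGroup.eq_one_iff]
    change (g : G ⧸ A) ^ v.val * (f y : G ⧸ A) * ((g : G ⧸ A) ^ (v + (φ y : ZMod n)).val)⁻¹ = 1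
    rw [hfφ, mul_inv_eq_one, ← zpow_natCast, ← zpow_natCast, ← zpow_add,
      zpow_eq_zpow_iff_modEq, ← hn, ← ZMod.intCast_eq_intCast_iff]
    push_cast
    rw [ZMod.natCast_zmod_val, ZMod.natCast_zmod_val]
  let c : ZMod n → α → A := fun v y => ⟨_, hmem v y⟩
  have hk : ∀ (x : α) (r q : ZMod n),
      KnZ (W (adda fun x => (φ x : ZMod n)) x (ind r) q) := fun x r q =>
    hcore α n φ hφ x (ind r) q
  have h1 : Kn (Pr (adda fun x => (φ x : ZMod n)) c 0) := Pr_known hk c 0
  have h2 : Kn fun w : List α =>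
      (w.map fun y => Multiplicative.ofAdd (φ y : ZMod n)).prod := comm_known _
  have h3 : ∀ (w : List α) (v : ZMod n),
      ((Pr (adda fun x => (φ x : ZMod n)) c v w : A) : G) =
      s v * (w.map f).prod *
        (s (v + (w.map fun y => Multiplicative.ofAdd (φ y : ZMod n)).prod.toAdd))⁻¹ := by
    intro w
    induction w with
    | nil =>
      intro v
      simp only [Pr_nil, OneMemClass.coe_one, List.map_nil, List.prod_nil, mul_one, toAdd_one,
        add_zero, mul_inv_cancel]
    | cons y w ih =>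
      intro v
      rw [Pr_cons, Subgroup.coe_mul, ih]
      simp only [c, List.map_cons, List.prod_cons, toAdd_mul, toAdd_ofAdd]
      have e : adda (fun x => (φ x : ZMod n)) v y = v + (φ y : ZMod n) := rfl
      rw [e, ← add_assoc]
      group
  have h4 := h1.comp₂ h2 fun a m => (s 0)⁻¹ * (a : G) * s (0 + m.toAdd)
  have h5 : (fun w : List α => (w.map f).prod) = fun w =>
      (s 0)⁻¹ * ((Pr (adda fun x => (φ x : ZMod n)) c 0 w : A) : G) *
        s (0 + (w.map fun y => Multiplicative.ofAdd (φ y : ZMod n)).prod.toAdd) := by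
    funext w
    rw [h3]
    group
  rw [h5]
  exact h4

end Vale.Agent.P329.H211
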