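import Vale.Agent.P329.R3.H211.Wrap
import Vale.Agent.P329.R3.H211.Avoid

/-! The counting functions of a letter of value one in terms of returns. -/

set_option linter.all false

namespace Vale.Agent.P329.H211

open Vale.Agent.P329

section

variable {α : Type} {n : ℕ} [NeZero n] {φ : α → ℤ} {b : α} {r : ZMod n}

open Classical in
/-- first state -/
noncomputable def s0 (g : ZMod n) : ZMod n × Mem n :=
  if g = 0 then (0, me n) else (g, (true, -1, fun _ => false))

open Classical in
/-- first flag -/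
noncomputable def z0 (g : ZMod n) : Bool := if g = 0 then true else false

/-- reading `b` from `r - 1` at the maximum of an excursion upwards -/
def enew (b : α) (r : ZMod n) (s : ZMod n × Mem n) (x : α) : Prop :=
  x = b ∧ s.1 + 1 = r ∧ (s.1 = 0 ∨ s.2.1 = true) ∧ s.1 = s.2.2.1

/-- validity of a state -/
def Val (s : ZMod n × Mem n) : Prop :=
  (s.1 = 0 → s.2 = me n) ∧ (s.1 ≠ 0 → s.2.1 = true → s.1.val ≤ s.2.2.1.val) ∧
  (∀ y : ZMod n, y ≠ 0 → s.2.2.2 y = true → y.val ≤ s.2.2.1.val)

theorem neg_one_val : ((-1 : ZMod n)).val + 1 = n := val_add_one' (by ring)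

theorem val_s0 (g : ZMod n) : Val (s0 g) := by
  unfold s0
  have h1 := neg_one_val (n := n)
  have h2 := ZMod.val_lt g
  split_ifs with h
  · exact ⟨fun _ => rfl, fun h3 => absurd rfl h3, fun y hy h3 => absurd h3 Bool.false_ne_true⟩
  · refine ⟨fun h3 => absurd h3 h, fun _ _ => ?_, fun y hy h3 => absurd h3 Bool.false_ne_true⟩
    simp only
    omega

theorem s0_fst (g : ZMod n) : (s0 g).1 = g := by
  unfold s0
  split_ifs with h
  · exact h.symm
  · rfl

/-- the two cases of a step upwards in an upward excursion -/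
theorem up_cases (hφ : ∀ x, φ x = 0 ∨ φ x = 1 ∨ φ x = -1) {s : ZMod n × Mem n} (hV : Val s)
    {x : α} (h : s.1 + (φ x : ZMod n) ≠ 0) (hd : (mu φ b s.1 s.2 x).1 = true) :
    (s.1 = 0 ∨ s.2.1 = true) ∧ ((s.1 + (φ x : ZMod n)).val : ℤ) = s.1.val + φ x ∧
    s.1.val ≤ s.2.2.1.val ∧ (s.1 = 0 → φ x = 1) := by
  obtain ⟨v, m⟩ := s
  simp only at h hd ⊢
  by_cases hv : v = 0
  · subst hv
    rw [mu_fst_zero] at hd
    have h1 : φ x = 1 := of_decide_eq_true hd
    refine ⟨Or.inl rfl, ?_, by simp, fun _ => h1⟩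
    have h6 := lev_step (b := b) hφ (m := m) h
    rw [lev_up h (by rw [mu_fst_zero]; exact hd), lev_zero] at h6
    rw [h6, ZMod.val_zero]; simp
  · rw [mu_fst_ne hv] at hd
    exact ⟨Or.inr hd, val_step3 (hφ x) hv h, hV.2.1 hv hd, fun h1 => absurd h1 hv⟩

theorem val_step (hφ : ∀ x, φ x = 0 ∨ φ x = 1 ∨ φ x = -1) {s : ZMod n × Mem n} (hV : Val s)
    (x : α) : Val (tot φ (me n) (mu φ b) s x) := by
  classical
  by_cases h : s.1 + (φ x : ZMod n) = 0
  · have ht : tot φ (me n) (mu φ b) s x = (0, me n) := if_pos h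
    rw [ht]
    exact ⟨fun _ => rfl, fun h3 => absurd rfl h3, fun y hy h3 => absurd h3 Bool.false_ne_true⟩
  · have ht : tot φ (me n) (mu φ b) s x = (s.1 + (φ x : ZMod n), mu φ b s.1 s.2 x) := if_neg h
    rw [ht]
    refine ⟨fun h3 => absurd h3 h, ?_, ?_⟩
    · intro _ hd
      simp only at hd ⊢
      obtain ⟨h1, h2, h3, h4⟩ := up_cases hφ hV h hd
      by_cases hnew : φ x = 1 ∧ s.1 = s.2.2.1
      · rw [(mu_new h1 hnew.1 hnew.2).1, hnew.1, Int.cast_one]
      · rw [mu_old hnew]
        have h5 : ¬ (φ x = 1 ∧ s.1.val = s.2.2.1.val) := fun h9 =>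
          hnew ⟨h9.1, ZMod.val_injective n h9.2⟩
        have h6 := hφ x
        omega
    · intro y hy h1
      simp only at h1 ⊢
      by_cases hnew : (s.1 = 0 ∨ s.2.1 = true) ∧ φ x = 1 ∧ s.1 = s.2.2.1
      · obtain ⟨h2, h3, h4⟩ := hnew
        obtain ⟨h5, h6⟩ := mu_new (b := b) h2 h3 h4
        rw [h3, Int.cast_one] at h
        rw [h5]
        rw [h6] at h1
        by_cases hy1 : y = s.1 + 1
        · rw [hy1]
        · rw [Function.update_of_ne hy1] at h1
          have h7 := hV.2.2 y hy h1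
          rw [val_add_one h, h4]
          omega
      · have h2 : (mu φ b s.1 s.2 x).2 = s.2.2 := by
          by_cases h3 : φ x = 1 ∧ s.1 = s.2.2.1
          · have h4 : ¬ (s.1 = 0 ∨ s.2.1 = true) := fun h5 => hnew ⟨h5, h3⟩
            push Not at h4
            have h5 : s.2.1 = false := by
              cases h6 : s.2.1
              · rfl
              · exact absurd h6 h4.2
            rw [mu_dn h4.1 h5]
          · exact mu_old h3
        rw [h2] at h1 ⊢
        exact hV.2.2 y hy h1

/-- coupling of the two automata -/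
def Jc (r : ZMod n) (s : ZMod n × Mem n) (p : ZMod n × Bool) : Prop :=
  p.1 = s.1 - r ∧ (s.1 = 0 → p.2 = true) ∧
  (s.1 ≠ 0 → s.2.1 = true → (p.2 = false ↔ r.val ≤ s.2.2.1.val)) ∧
  (s.1 ≠ 0 → s.2.1 = false → s.1.val ≤ r.val → p.2 = false)

theorem jc_s0 (g : ZMod n) : Jc r (s0 g) (g - r, z0 g) := by
  unfold s0 z0
  have h1 := neg_one_val (n := n)
  have h2 := ZMod.val_lt r
  split_ifs with h
  · exact ⟨by rw [h], fun _ => rfl, fun h3 => absurd rfl h3, fun h3 => absurd rfl h3⟩
  · refine ⟨rfl, fun h3 => absurd h3 h, fun _ _ => ?_, fun _ _ _ => rfl⟩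
    simp only [true_iff]
    omega

theorem jc_step (hφ : ∀ x, φ x = 0 ∨ φ x = 1 ∨ φ x = -1) (hr : r ≠ 0)
    {s : ZMod n × Mem n} {p : ZMod n × Bool} (hV : Val s) (hJ : Jc r s p) (x : α) :
    Jc r (tot φ (me n) (mu φ b) s x) (tot φ false (mu4 φ r) p x) := by
  classical
  obtain ⟨hp, hJ0, hJ1, hJ2⟩ := hJ
  have hp1 : p.1 + (φ x : ZMod n) = s.1 + (φ x : ZMod n) - r := by rw [hp]; ring
  by_cases h : s.1 + (φ x : ZMod n) = 0
  · have ht : tot φ (me n) (mu φ b) s x = (0, me n) := if_pos h
    have hp2 : p.1 + (φ x : ZMod n) = -r := by rw [hp1, h, zero_sub]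
    have ht4 : tot φ false (mu4 φ r) p x = (-r, true) := by
      have h1 : tot φ false (mu4 φ r) p x = (p.1 + (φ x : ZMod n), mu4 φ r p.1 p.2 x) :=
        if_neg (by rw [hp2]; exact neg_ne_zero.mpr hr)
      rw [h1, hp2]
      have h2 : mu4 φ r p.1 p.2 x = true := if_pos hp2
      rw [h2]
    rw [ht, ht4]
    exact ⟨(zero_sub r).symm, fun _ => rfl, fun h3 => absurd rfl h3, fun h3 => absurd rfl h3⟩
  · have ht : tot φ (me n) (mu φ b) s x = (s.1 + (φ x : ZMod n), mu φ b s.1 s.2 x) := if_neg h
    have hV' := val_step (b := b) hφ hV x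
    rw [ht] at hV'
    rw [ht]
    by_cases hx : s.1 + (φ x : ZMod n) = r
    · have hp2 : p.1 + (φ x : ZMod n) = 0 := by rw [hp1, hx, sub_self]
      have ht4 : tot φ false (mu4 φ r) p x = (0, false) := if_pos hp2
      rw [ht4, hx]
      refine ⟨(sub_self r).symm, fun h3 => absurd h3 hr, fun _ hd => ?_, fun _ _ _ => rfl⟩
      have h1 := hV'.2.1 h hd
      simp only [true_iff] at h1 ⊢
      rw [hx] at h1
      exact h1
    · have hp2 : p.1 + (φ x : ZMod n) ≠ 0 := by
        rw [hp1]; exact sub_ne_zero.mpr hx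
      have hp3 : p.1 + (φ x : ZMod n) ≠ -r := by
        rw [hp1]
        intro h1
        apply h
        have : s.1 + (φ x : ZMod n) = (s.1 + (φ x : ZMod n) - r) + r := by ring
        rw [this, h1]; ring
      have ht4 : tot φ false (mu4 φ r) p x = (s.1 + (φ x : ZMod n) - r, p.2) := by
        have h1 : tot φ false (mu4 φ r) p x = (p.1 + (φ x : ZMod n), mu4 φ r p.1 p.2 x) :=
          if_neg hp2
        rw [h1, hp1]
        have h2 : mu4 φ r p.1 p.2 x = p.2 := if_neg hp3
        rw [h2]
      rw [ht4]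
      have hrv : (s.1 + (φ x : ZMod n)).val ≠ r.val := fun h1 => hx (ZMod.val_injective n h1)
      have hr0 := val_pos' hr
      refine ⟨rfl, fun h3 => absurd h3 h, fun _ hd => ?_, fun _ hd hle => ?_⟩
      · simp only at hd ⊢
        obtain ⟨h1, h2, h3, h4⟩ := up_cases hφ hV h hd
        have h6 := hφ x
        by_cases hv : s.1 = 0
        · have h5 := h4 hv
          have hm := hV.1 hv
          have hz : s.2.2.1 = 0 := by rw [hm]; rfl
          have hnew : φ x = 1 ∧ s.1 = s.2.2.1 := ⟨h5, by rw [hv, hz]⟩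
          rw [(mu_new h1 hnew.1 hnew.2).1, hJ0 hv]
          rw [h5, Int.cast_one] at h2 hrv
          rw [hv, ZMod.val_zero] at h2
          rw [hv] at hrv
          rw [hv]
          constructor
          · intro h7; exact absurd h7.symm Bool.false_ne_true
          · intro h7; exfalso; omega
        · have hd' : s.2.1 = true := h1.resolve_left hv
          rw [hJ1 hv hd']
          by_cases hnew : φ x = 1 ∧ s.1 = s.2.2.1
          · rw [(mu_new h1 hnew.1 hnew.2).1]
            rw [hnew.1, Int.cast_one] at h2 hrv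
            have h7 : s.1.val = s.2.2.1.val := by rw [← hnew.2]
            constructor
            · intro h8; omega
            · intro h8; omega
          · rw [mu_old hnew]
      · simp only at hd hle ⊢
        by_cases hv : s.1 = 0
        · exfalso
          rw [hv, mu_fst_zero] at hd
          have h5 : φ x ≠ 1 := of_decide_eq_false hd
          rw [hv, zero_add] at h hle hrv
          have h6 := hφ x
          have h7 : φ x = -1 := by
            rcases h6 with h6 | h6 | h6
            · rw [h6, Int.cast_zero] at h; exact absurd rfl h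
            · exact absurd h6 h5
            · exact h6
          have h8 : ((φ x : ℤ) : ZMod n) = -1 := by rw [h7]; push_cast; ring
          rw [h8] at hle hrv
          have h9 := neg_one_val (n := n)
          have h10 := ZMod.val_lt r
          omega
        · rw [mu_fst_ne hv] at hd
          apply hJ2 hv hd
          have h2 := val_step3 (hφ x) hv h
          have h6 := hφ x
          omega

open Classical in
/-- one letter: the counting identity -/
theorem count_step (hb : φ b = 1) (hr : r ≠ 0)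
    {s : ZMod n × Mem n} {p : ZMod n × Bool} (hV : Val s) (hJ : Jc r s p) (x : α) :
    (if x = b then ind (r - 1) s.1 else 0 : ℤ) = (if enew b r s x then 1 else 0) +
      (if p.1 + (φ x : ZMod n) = 0 ∧ sil4 b p.1 p.2 x then 1 else 0) := by
  obtain ⟨hp, hJ0, hJ1, hJ2⟩ := hJ
  by_cases hx : x = b
  · rw [if_pos hx]
    have hφx : ((φ x : ℤ) : ZMod n) = 1 := by rw [hx, hb, Int.cast_one]
    by_cases hs : s.1 + 1 = r
    · have h1 : s.1 = r - 1 := by rw [← hs]; ring
      have h2 : p.1 + (φ x : ZMod n) = 0 := by rw [hp, hφx, h1]; ring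
      rw [h1, ind_self]
      have hne : s.1 + 1 ≠ 0 := by rw [hs]; exact hr
      have hval := val_add_one hne
      rw [hs] at hval
      have hlt := ZMod.val_lt s.2.2.1
      by_cases hv : s.1 = 0
      · have h3 : enew b r s x := ⟨hx, hs, Or.inl hv, by rw [hV.1 hv, hv]; rfl⟩
        have h4 : ¬ (p.1 + (φ x : ZMod n) = 0 ∧ sil4 b p.1 p.2 x) := by
          rintro ⟨_, _, h5⟩
          rw [hJ0 hv] at h5
          exact Bool.false_ne_true h5.symm
        rw [if_pos h3, if_neg h4, add_zero]
      · cases hd : s.2.1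
        · have h3 : ¬ enew b r s x := by
            rintro ⟨_, _, h5, _⟩
            rcases h5 with h5 | h5
            · exact hv h5
            · rw [hd] at h5; exact Bool.false_ne_true h5
          have h4 : p.1 + (φ x : ZMod n) = 0 ∧ sil4 b p.1 p.2 x :=
            ⟨h2, hx, hJ2 hv hd (by omega)⟩
          rw [if_neg h3, if_pos h4, zero_add]
        · have h5 := hJ1 hv hd
          have h6 := hV.2.1 hv hd
          by_cases h7 : s.1 = s.2.2.1
          · have h3 : enew b r s x := ⟨hx, hs, Or.inr hd, h7⟩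
            have h4 : ¬ (p.1 + (φ x : ZMod n) = 0 ∧ sil4 b p.1 p.2 x) := by
              rintro ⟨_, _, h8⟩
              have h9 := h5.mp h8
              rw [← h7] at h9
              omega
            rw [if_pos h3, if_neg h4, add_zero]
          · have h3 : ¬ enew b r s x := fun h8 => h7 h8.2.2.2
            have h8 : s.1.val ≠ s.2.2.1.val := fun h9 => h7 (ZMod.val_injective n h9)
            have h4 : p.1 + (φ x : ZMod n) = 0 ∧ sil4 b p.1 p.2 x :=
              ⟨h2, hx, h5.mpr (by omega)⟩
            rw [if_neg h3, if_pos h4, zero_add]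
    · have h1 : s.1 ≠ r - 1 := by intro h2; apply hs; rw [h2]; ring
      have h3 : ¬ enew b r s x := fun h4 => hs h4.2.1
      have h4 : ¬ (p.1 + (φ x : ZMod n) = 0 ∧ sil4 b p.1 p.2 x) := by
        rintro ⟨h5, _⟩
        apply h1
        rw [hp, hφx] at h5
        have : s.1 = (s.1 - r + 1) + (r - 1) := by ring
        rw [this, h5, zero_add]
      rw [ind_ne h1, if_neg h3, if_neg h4, add_zero]
  · have h3 : ¬ enew b r s x := fun h4 => hx h4.1
    have h4 : ¬ (p.1 + (φ x : ZMod n) = 0 ∧ sil4 b p.1 p.2 x) := fun h5 => hx h5.2.1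
    rw [if_neg hx, if_neg h3, if_neg h4, add_zero]

theorem ident1 (hφ : ∀ x, φ x = 0 ∨ φ x = 1 ∨ φ x = -1) (hb : φ b = 1) (hr : r ≠ 0)
    (w : List α) : ∀ {s : ZMod n × Mem n} {p : ZMod n × Bool}, Val s → Jc r s p →
    W (adda fun x => (φ x : ZMod n)) b (ind (r - 1)) s.1 w =
      Sm φ (me n) (mu φ b) (enew b r) s w +
      Sm φ false (mu4 φ r) (fun s x => s.1 + (φ x : ZMod n) = 0 ∧ sil4 b s.1 s.2 x) p w := by
  classical
  induction w with
  | nil => intro s p _ _; simp [W_nil, Sm]
  | cons x w ih =>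
    intro s p hV hJ
    have h1 := ih (val_step (b := b) hφ hV x) (jc_step (b := b) hφ hr hV hJ x)
    have h2 : (tot φ (me n) (mu φ b) s x).1 = adda (fun x => (φ x : ZMod n)) s.1 x := by
      unfold tot adda
      split_ifs with h3
      · exact h3.symm
      · rfl
    rw [h2] at h1
    have h3 := count_step hb hr hV hJ x
    rw [W_cons, Sm, Sm, h1]
    have h4 : (if x = b then ind (r - 1) s.1 else 0 : ℤ) =
      @ite ℤ (x = b) (Classical.propDecidable _) (ind (r - 1) s.1) 0 := by congr
    rw [← h4, h3]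
    ring_nf

end

end Vale.Agent.P329.H211
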