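import Vale.Agent.P329.R3.H211.Ident
import Vale.Agent.P329.R3.H211.Alg
import Vale.Agent.P329.R3.H211.Group

/-! The counting functions of walks in `ZMod n` with steps `0, 1, -1` are known. -/

set_option linter.all false

namespace Vale.Agent.P329.H211

open Vale.Agent.P329

section

variable {α : Type} {n : ℕ} [NeZero n] {φ : α → ℤ} {b : α} {r : ZMod n}

theorem enew_iff (hb : φ b = 1) (s : ZMod n × Mem n) (x : α) : enew b r s x ↔
    x = b ∧ s.1 + 1 = r ∧ ((s.1 = 0 ∨ s.2.1 = true) ∧ φ x = 1 ∧ s.1 = s.2.2.1) := by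
  constructor
  · rintro ⟨h1, h2, h3, h4⟩
    exact ⟨h1, h2, h3, by rw [h1, hb], h4⟩
  · rintro ⟨h1, h2, h3, _, h4⟩
    exact ⟨h1, h2, h3, h4⟩

open Classical in
/-- potential: is the level `r` labelled -/
noncomputable def psi (r : ZMod n) (s : ZMod n × Mem n) : ℤ := if s.2.2.2 r = true then 1 else 0

/-- return with `r` labelled -/
def evr (φ : α → ℤ) (r : ZMod n) (s : ZMod n × Mem n) (x : α) : Prop :=
  s.1 + (φ x : ZMod n) = 0 ∧ s.2.2.2 r = true

open Classical in
theorem psi_step (hb : φ b = 1) (hr : r ≠ 0)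
    {s : ZMod n × Mem n} (hV : Val s) (x : α) :
    (if enew b r s x then 1 else 0 : ℤ) + psi r s =
      (if evr φ r s x then 1 else 0) +
        psi r (tot φ (me n) (mu φ b) s x) := by
  by_cases h : s.1 + (φ x : ZMod n) = 0
  · have ht : tot φ (me n) (mu φ b) s x = (0, me n) := if_pos h
    have h1 : ¬ enew b r s x := by
      rintro ⟨h1, h2, _⟩
      apply hr
      rw [← h2]
      rw [h1, hb, Int.cast_one] at h
      exact h
    have h2 : psi r ((0, me n) : ZMod n × Mem n) = 0 := if_neg Bool.false_ne_true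
    rw [ht, if_neg h1, h2]
    unfold psi
    by_cases h3 : s.2.2.2 r = true
    · rw [if_pos h3, if_pos (show evr φ r s x from ⟨h, h3⟩)]; ring
    · rw [if_neg h3, if_neg (fun h4 : evr φ r s x => h3 h4.2)]
  · have ht : tot φ (me n) (mu φ b) s x = (s.1 + (φ x : ZMod n), mu φ b s.1 s.2 x) := if_neg h
    rw [ht, if_neg (fun h4 : evr φ r s x => h h4.1), zero_add]
    by_cases hnew : (s.1 = 0 ∨ s.2.1 = true) ∧ φ x = 1 ∧ s.1 = s.2.2.1
    · obtain ⟨h2, h3, h4⟩ := hnew
      obtain ⟨h5, h6⟩ := mu_new (b := b) h2 h3 h4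
      by_cases hs : s.1 + 1 = r
      · have h7 : ¬ s.2.2.2 r = true := by
          intro h8
          have h9 := hV.2.2 r hr h8
          have h10 : s.1 + 1 ≠ 0 := by rw [hs]; exact hr
          have h11 := val_add_one h10
          rw [hs, h4] at h11
          omega
        have h8 : psi r s = 0 := if_neg h7
        rw [h8, add_zero]
        unfold psi
        simp only
        rw [h6, hs, Function.update_self]
        by_cases hx : x = b
        · rw [if_pos ⟨hx, hs, h2, h4⟩, if_pos (decide_eq_true hx)]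
        · rw [if_neg (fun h9 : enew b r s x => hx h9.1), if_neg]
          rw [decide_eq_true_eq]; exact hx
      · rw [if_neg (fun h9 : enew b r s x => hs h9.2.1), zero_add]
        unfold psi
        simp only
        rw [h6, Function.update_of_ne (Ne.symm hs)]
    · have h1 : ¬ enew b r s x := fun h2 => hnew ((enew_iff hb s x).mp h2).2.2
      have h2 : (mu φ b s.1 s.2 x).2 = s.2.2 := by
        by_cases h3 : φ x = 1 ∧ s.1 = s.2.2.1
        · have h4 : ¬ (s.1 = 0 ∨ s.2.1 = true) := fun h5 => hnew ⟨h5, h3⟩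
          push Not at h4
          have h5 : s.2.1 = false := by
            cases h6 : s.2.1
            · rfl
            · exact absurd h6 h4.2
          rw [mu_dn h4.1 h5]
        · exact mu_old h3
      rw [if_neg h1, zero_add]
      unfold psi
      simp only
      rw [h2]

theorem ident2 (hφ : ∀ x, φ x = 0 ∨ φ x = 1 ∨ φ x = -1) (hb : φ b = 1) (hr : r ≠ 0)
    (w : List α) : ∀ {s : ZMod n × Mem n}, Val s →
    Sm φ (me n) (mu φ b) (enew b r) s w + psi r s =
      Sm φ (me n) (mu φ b) (evr φ r) s w +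
      psi r (w.foldl (tot φ (me n) (mu φ b)) s) := by
  classical
  induction w with
  | nil => intro s _; simp [Sm]
  | cons x w ih =>
    intro s hV
    have h1 := ih (val_step (b := b) hφ hV x)
    have h2 := psi_step hb hr hV x
    rw [Sm, Sm, List.foldl_cons]
    linarith

/-- returns with level `r` labelled -/
def eret (φ : α → ℤ) (b : α) (r : ZMod n) (s : ZMod n × Mem n) (x : α) : Prop :=
  s.1 + (φ x : ZMod n) = 0 ∧ lab b s.2 x r = true

theorem ident_zero (hb : φ b = 1) (w : List α) : ∀ s : ZMod n × Mem n,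
    W (adda fun x => (φ x : ZMod n)) b (ind (0 - 1)) s.1 w =
      Sm φ (me n) (mu φ b) (eret φ b 0) s w := by
  classical
  induction w with
  | nil => intro s; simp [W_nil, Sm]
  | cons x w ih =>
    intro s
    have h1 := ih (tot φ (me n) (mu φ b) s x)
    have h2 : (tot φ (me n) (mu φ b) s x).1 = adda (fun x => (φ x : ZMod n)) s.1 x := by
      unfold tot adda
      split_ifs with h3
      · exact h3.symm
      · rfl
    rw [h2] at h1
    rw [W_cons, Sm, h1]
    congr 1
    by_cases hx : x = b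
    · rw [if_pos hx]
      have hφx : ((φ x : ℤ) : ZMod n) = 1 := by rw [hx, hb, Int.cast_one]
      by_cases hs : s.1 = 0 - 1
      · rw [hs, ind_self, if_pos]
        refine ⟨by rw [hφx, hs]; ring, ?_⟩
        rw [lab, Function.update_self]; exact decide_eq_true hx
      · rw [ind_ne hs, if_neg]
        rintro ⟨h3, _⟩
        apply hs
        rw [hφx] at h3
        exact (neg_eq_of_add_eq_zero_left h3).symm.trans (zero_sub 1).symm
    · rw [if_neg hx, if_neg]
      rintro ⟨_, h3⟩
      rw [lab, Function.update_self] at h3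
      exact hx (of_decide_eq_true h3)

/-- reduction of the counting function of the level `r` to the labels of the returns -/
theorem known_diff_r [Finite α] (hφ : ∀ x, φ x = 0 ∨ φ x = 1 ∨ φ x = -1) (hb : φ b = 1)
    (r g : ZMod n) :
    KnZ fun w => W (adda fun x => (φ x : ZMod n)) b (ind (r - 1)) g w -
      Sm φ (me n) (mu φ b) (eret φ b r) (s0 g) w := by
  by_cases hr : r = 0
  · subst hr
    apply (KnZ.const 0).congr
    intro w
    rw [← ident_zero hb w (s0 g), s0_fst, sub_self]
  · have k1 := known4 (b := b) hφ hr (g - r, z0 g)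
    have k2 := known_fin (m0 := me n) (μ := mu φ b) (noCyc_false hφ) (s0 g) (psi r)
    apply ((k1.add k2).sub (KnZ.const (psi r (s0 g)))).congr
    intro w
    have h1 := ident1 hφ hb hr w (val_s0 g) (jc_s0 (r := r) g)
    have h2 := ident2 hφ hb hr w (val_s0 g)
    rw [s0_fst] at h1
    have h3 : Sm φ (me n) (mu φ b) (eret φ b r) (s0 g) w =
        Sm φ (me n) (mu φ b) (evr φ r) (s0 g) w := by
      apply Sm_congr
      intro s x
      unfold eret lab evr
      rw [Function.update_of_ne hr]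
    rw [h3]
    linarith

theorem Sm_sum {τ : Type} {m0 : τ} {μ : ZMod n → τ → α → τ} {ι : Type} [Fintype ι]
    {E E1 : ZMod n × τ → α → Prop} (c : ι → ℤ) (F : ι → ZMod n × τ → α → Prop)
    (h : ∀ s x, (@ite ℤ (E s x) (Classical.propDecidable _) 1 0) =
      (@ite ℤ (E1 s x) (Classical.propDecidable _) 1 0) +
      ∑ i, c i * (@ite ℤ (F i s x) (Classical.propDecidable _) 1 0)) (w : List α) : ∀ s,
    Sm φ m0 μ E s w = Sm φ m0 μ E1 s w + ∑ i, c i * Sm φ m0 μ (F i) s w := by
  induction w with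
  | nil => intro s; simp [Sm]
  | cons x w ih =>
    intro s
    rw [Sm, Sm, ih, h s x]
    simp only [Sm, mul_add, Finset.sum_add_distrib]
    ring

/-- the returns with a label containing `r`: nonwrapping ones, and wrapping ones by label -/
theorem ident3 (w : List α) (s : ZMod n × Mem n) :
    Sm φ (me n) (mu φ b) (eret φ b r) s w =
      Sm φ (me n) (mu φ b) (fun s x => s.1 + (φ x : ZMod n) = 0 ∧
        (lev s.1 s.2 + φ x = 0 ∧ lab b s.2 x r = true)) s w +
      ∑ t : ZMod n → Bool, (if t r = true then 1 else 0) *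
        Sm φ (me n) (mu φ b) (fun s x => s.1 + (φ x : ZMod n) = 0 ∧ silw φ b t s.1 s.2 x) s w := by
  classical
  apply Sm_sum
  intro s x
  rw [Finset.sum_eq_single (lab b s.2 x)]
  · by_cases h1 : s.1 + (φ x : ZMod n) = 0
    · by_cases h2 : lab b s.2 x r = true
      · by_cases h3 : lev s.1 s.2 + φ x = 0
        · rw [if_pos (show eret φ b r s x from ⟨h1, h2⟩), if_pos ⟨h1, h3, h2⟩, if_pos h2, if_neg]
          · ring
          · exact fun h4 => h4.2.1 h3
        · rw [if_pos (show eret φ b r s x from ⟨h1, h2⟩), if_neg (c := _ ∧ _ ∧ _), if_pos h2,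
            if_pos ⟨h1, h3, rfl⟩]
          · ring
          · exact fun h4 => h3 h4.2.1
      · have e1 : ¬ (s.1 + (φ x : ZMod n) = 0 ∧ (lev s.1 s.2 + φ x = 0 ∧ lab b s.2 x r = true)) :=
          fun h4 => h2 h4.2.2
        rw [if_neg (fun h4 : eret φ b r s x => h2 h4.2), if_neg e1, if_neg h2]
        ring
    · have e1 : ¬ (s.1 + (φ x : ZMod n) = 0 ∧ (lev s.1 s.2 + φ x = 0 ∧ lab b s.2 x r = true)) :=
        fun h4 => h1 h4.1
      have e2 : ¬ (s.1 + (φ x : ZMod n) = 0 ∧ silw φ b (lab b s.2 x) s.1 s.2 x) :=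
        fun h4 => h1 h4.1
      rw [if_neg (fun h4 : eret φ b r s x => h1 h4.1), if_neg e1, if_neg e2]
      ring
  · intro t _ ht
    rw [if_neg (c := s.1 + (φ x : ZMod n) = 0 ∧ silw φ b t s.1 s.2 x), mul_zero]
    exact fun h4 => ht h4.2.2.symm
  · intro h; exact absurd (Finset.mem_univ _) h

/-- letters of value one, function orthogonal to the periodic patterns -/
theorem known_orth [Finite α] (hφ : ∀ x, φ x = 0 ∨ φ x = 1 ∨ φ x = -1) (hb : φ b = 1)
    (g : ZMod n) (Φ : ZMod n → ℤ) (hΦ : ∀ t : ZMod n → Bool,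
      (∃ q : ℕ, q.Prime ∧ q ∣ n ∧ ∀ v, t (v + ((n / q : ℕ) : ZMod n)) = t v) →
        ∑ r : ZMod n, (if t r = true then Φ (r - 1) else 0) = 0) :
    KnZ (W (adda fun x => (φ x : ZMod n)) b Φ g) := by
  classical
  have k1 : KnZ fun w => ∑ r : ZMod n, Φ (r - 1) *
      (W (adda fun x => (φ x : ZMod n)) b (ind (r - 1)) g w -
        Sm φ (me n) (mu φ b) (eret φ b r) (s0 g) w) :=
    KnZ.sum Finset.univ fun r _ => (known_diff_r hφ hb r g).mul_left _
  have k2 : KnZ fun w => ∑ r : ZMod n, Φ (r - 1) *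
      Sm φ (me n) (mu φ b) (fun s x => s.1 + (φ x : ZMod n) = 0 ∧
        (lev s.1 s.2 + φ x = 0 ∧ lab b s.2 x r = true)) (s0 g) w :=
    KnZ.sum Finset.univ fun r _ => (known_sil (noCyc_false hφ)
      (noCyc_nw hφ (fun v m x => lab b m x r = true)) (s0 g)).mul_left _
  have k3 : KnZ fun w => ∑ t : ZMod n → Bool,
      (∑ r : ZMod n, (if t r = true then Φ (r - 1) else 0)) *
      Sm φ (me n) (mu φ b) (fun s x => s.1 + (φ x : ZMod n) = 0 ∧ silw φ b t s.1 s.2 x)
        (s0 g) w := by
    apply KnZ.sum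
    intro t _
    by_cases ht : ∃ q : ℕ, q.Prime ∧ q ∣ n ∧ ∀ v, t (v + ((n / q : ℕ) : ZMod n)) = t v
    · rw [hΦ t ht]
      apply (KnZ.const 0).congr
      intro w
      rw [zero_mul]
    · exact (known_sil (noCyc_false hφ) (noCyc_wrap hφ hb ht) (s0 g)).mul_left _
  apply ((k1.add k2).add k3).congr
  intro w
  have h1 : W (adda fun x => (φ x : ZMod n)) b Φ g w =
      ∑ r : ZMod n, Φ (r - 1) * W (adda fun x => (φ x : ZMod n)) b (ind (r - 1)) g w := by
    have h2 : Φ = fun v => ∑ r : ZMod n, Φ (r - 1) * ind (r - 1) v := by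
      funext v
      rw [Finset.sum_eq_single (v + 1)]
      · rw [add_sub_cancel_right, ind_self, mul_one]
      · intro r _ hr
        rw [ind_ne, mul_zero]
        intro h3
        apply hr
        rw [h3]; ring
      · intro h; exact absurd (Finset.mem_univ _) h
    conv_lhs => rw [h2]
    rw [W_sum]
    refine Finset.sum_congr rfl fun r _ => ?_
    rw [W_mul]
  rw [h1]
  have h4 : ∑ t : ZMod n → Bool, (∑ r : ZMod n, (if t r = true then Φ (r - 1) else 0)) *
      Sm φ (me n) (mu φ b) (fun s x => s.1 + (φ x : ZMod n) = 0 ∧ silw φ b t s.1 s.2 x)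
        (s0 g) w = ∑ r : ZMod n, Φ (r - 1) * ∑ t : ZMod n → Bool,
        (if t r = true then 1 else 0) * Sm φ (me n) (mu φ b)
          (fun s x => s.1 + (φ x : ZMod n) = 0 ∧ silw φ b t s.1 s.2 x) (s0 g) w := by
    simp only [Finset.sum_mul, Finset.mul_sum]
    rw [Finset.sum_comm]
    refine Finset.sum_congr rfl fun r _ => Finset.sum_congr rfl fun t _ => ?_
    split_ifs <;> ring
  rw [h4, ← Finset.sum_add_distrib, ← Finset.sum_add_distrib]
  refine Finset.sum_congr rfl fun r _ => ?_
  rw [ident3 (r := r) w (s0 g)]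
  ring

/-- letters of value zero -/
theorem zero_count (hb : φ b = 0) (w : List α) : ∀ s : ZMod n × Mem n,
    W (adda fun x => (φ x : ZMod n)) b (ind 0) s.1 w =
      Sm φ (me n) (mu φ b) (fun s x => s.1 + (φ x : ZMod n) = 0 ∧
        (lev s.1 s.2 + φ x = 0 ∧ (s.1 = 0 ∧ x = b))) s w := by
  classical
  induction w with
  | nil => intro s; simp [W_nil, Sm]
  | cons x w ih =>
    intro s
    have h1 := ih (tot φ (me n) (mu φ b) s x)
    have h2 : (tot φ (me n) (mu φ b) s x).1 = adda (fun x => (φ x : ZMod n)) s.1 x := by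
      unfold tot adda
      split_ifs with h3
      · exact h3.symm
      · rfl
    rw [h2] at h1
    rw [W_cons, Sm, h1]
    congr 1
    by_cases hx : x = b
    · rw [if_pos hx]
      by_cases hs : s.1 = 0
      · have e1 : s.1 + (φ x : ZMod n) = 0 ∧ (lev s.1 s.2 + φ x = 0 ∧ (s.1 = 0 ∧ x = b)) := by
          refine ⟨?_, ?_, hs, hx⟩
          · rw [hs, hx, hb, Int.cast_zero, add_zero]
          · rw [hs, lev_zero, hx, hb, add_zero]
        rw [if_pos e1, hs, ind_self]
      · have e1 : ¬ (s.1 + (φ x : ZMod n) = 0 ∧ (lev s.1 s.2 + φ x = 0 ∧ (s.1 = 0 ∧ x = b))) :=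
          fun h => hs h.2.2.1
        rw [if_neg e1, ind_ne hs]
    · have e1 : ¬ (s.1 + (φ x : ZMod n) = 0 ∧ (lev s.1 s.2 + φ x = 0 ∧ (s.1 = 0 ∧ x = b))) :=
        fun h => hx h.2.2.2
      rw [if_neg e1, if_neg hx]

theorem known_val_zero [Finite α] (hφ : ∀ x, φ x = 0 ∨ φ x = 1 ∨ φ x = -1) (hb : φ b = 0)
    (g : ZMod n) (Φ : ZMod n → ℤ) : KnZ (W (adda fun x => (φ x : ZMod n)) b Φ g) := by
  classical
  have k1 : ∀ r : ZMod n, KnZ (W (adda fun x => (φ x : ZMod n)) b (ind r) g) := by
    intro r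
    have k := known_sil (noCyc_false (b := b) hφ)
      (noCyc_nw (b := b) hφ (fun v m x => v = 0 ∧ x = b)) (s0 (g - r))
    apply k.congr
    intro w
    rw [W_shift, ← zero_count hb w (s0 (g - r)), s0_fst]
  have k2 : KnZ fun w => ∑ r : ZMod n, Φ r * W (adda fun x => (φ x : ZMod n)) b (ind r) g w :=
    KnZ.sum Finset.univ fun r _ => (k1 r).mul_left _
  apply k2.congr
  intro w
  have h2 : Φ = fun v => ∑ r : ZMod n, Φ r * ind r v := by
    funext v
    rw [Finset.sum_eq_single v]
    · rw [ind_self, mul_one]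
    · intro r _ hr
      rw [ind_ne (Ne.symm hr), mul_zero]
    · intro h; exact absurd (Finset.mem_univ _) h
  conv_lhs => rw [h2]
  rw [W_sum]
  refine Finset.sum_congr rfl fun r _ => ?_
  rw [W_mul]

end

/-- negation of the values -/
theorem W_neg {α : Type} {n : ℕ} [NeZero n] (φ : α → ℤ) (b : α) (Φ : ZMod n → ℤ)
    (w : List α) : ∀ g : ZMod n,
    W (adda fun x => (φ x : ZMod n)) b Φ g w =
      W (adda fun x => ((-φ x : ℤ) : ZMod n)) b (fun v => Φ (-v)) (-g) w := by
  classical
  induction w with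
  | nil => intro g; rfl
  | cons x w ih =>
    intro g
    rw [W_cons, W_cons, ih]
    have h1 : -(adda (fun x => (φ x : ZMod n)) g x) =
        adda (fun x => ((-φ x : ℤ) : ZMod n)) (-g) x := by
      unfold adda; push_cast; ring
    rw [h1, neg_neg]

/-- restriction to a divisor -/
theorem W_cast {α : Type} {n m : ℕ} [NeZero n] [NeZero m] (h : m ∣ n) (φ : α → ℤ) (b : α)
    (Ψ : ZMod m → ℤ) (w : List α) : ∀ g : ZMod n,
    W (adda fun x => (φ x : ZMod n)) b (fun v => Ψ (ZMod.castHom h (ZMod m) v)) g w =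
      W (adda fun x => (φ x : ZMod m)) b Ψ (ZMod.castHom h (ZMod m) g) w := by
  classical
  induction w with
  | nil => intro g; rfl
  | cons x w ih =>
    intro g
    rw [W_cons, W_cons, ih]
    have h1 : ZMod.castHom h (ZMod m) (adda (fun x => (φ x : ZMod n)) g x) =
        adda (fun x => (φ x : ZMod m)) (ZMod.castHom h (ZMod m) g) x := by
      unfold adda
      rw [map_add, map_intCast]
    rw [h1]

/-- a periodic function comes from the quotient -/
theorem periodic_cast {n m : ℕ} [NeZero n] [NeZero m] (h : m ∣ n) (Φ : ZMod n → ℤ)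
    (hΦ : ∀ v, Φ (v + (m : ZMod n)) = Φ v) :
    ∃ Ψ : ZMod m → ℤ, Φ = fun v => Ψ (ZMod.castHom h (ZMod m) v) := by
  refine ⟨fun u => Φ (u.val : ZMod n), ?_⟩
  have hmul : ∀ (k : ℕ) v, Φ (v + k * (m : ZMod n)) = Φ v := by
    intro k
    induction k with
    | zero => intro v; simp
    | succ k ih =>
      intro v
      have : v + ((k + 1 : ℕ) : ZMod n) * (m : ZMod n) = (v + m) + k * (m : ZMod n) := by
        push_cast; ring
      rw [this, ih, hΦ]
  funext v
  have h1 : (ZMod.castHom h (ZMod m) v).val = v.val % m := by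
    have h2 : ZMod.castHom h (ZMod m) v = ((v.val : ℕ) : ZMod m) := by
      rw [ZMod.castHom_apply, ZMod.natCast_val]
    rw [h2, ZMod.val_natCast]
  have h3 : v = ((v.val % m : ℕ) : ZMod n) + ((v.val / m : ℕ) : ZMod n) * (m : ZMod n) := by
    rw [← Nat.cast_mul, ← Nat.cast_add]
    have h4 : v.val % m + v.val / m * m = v.val := by
      rw [mul_comm]; exact Nat.mod_add_div _ _
    rw [h4, ZMod.natCast_val, ZMod.cast_id', id]
  simp only
  rw [h1]
  conv_lhs => rw [h3]
  rw [hmul]

theorem core_aux (α : Type) [Finite α] (φ : α → ℤ) (hφ : ∀ x, φ x = 0 ∨ φ x = 1 ∨ φ x = -1)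
    (b : α) (hb : φ b = 1) (N : ℕ) : ∀ (n : ℕ) [NeZero n], n ≤ N → ∀ (Φ : ZMod n → ℤ)
    (g : ZMod n), KnZ (W (adda fun x => (φ x : ZMod n)) b Φ g) := by
  induction N with
  | zero => intro n _ hn; exact absurd (Nat.le_zero.mp hn) (NeZero.ne n)
  | succ N ih =>
    intro n _ hn Φ g
    have hn0 : 0 < n := Nat.pos_of_ne_zero (NeZero.ne n)
    apply all_mem (fun Φ => ∀ g : ZMod n, KnZ (W (adda fun x => (φ x : ZMod n)) b Φ g))
    · intro Φ Ψ h1 h2 g
      exact ((h1 g).add (h2 g)).congr fun w => W_add Φ Ψ g w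
    · intro c Φ h1 g
      exact ((h1 g).mul_left c).congr fun w => W_mul c Φ g w
    · intro c Φ hc h1 g
      apply KnZ.div hc
      exact (h1 g).congr fun w => (W_mul (c : ℤ) Φ g w).symm
    · intro q hq hqn Φ hΦ g
      have hm : n / q ∣ n := Nat.div_dvd_of_dvd hqn
      have hm0 : 0 < n / q := Nat.div_pos (Nat.le_of_dvd hn0 hqn) hq.pos
      have hmlt : n / q < n := Nat.div_lt_self hn0 hq.one_lt
      have : NeZero (n / q) := ⟨hm0.ne'⟩
      obtain ⟨Ψ, rfl⟩ := periodic_cast hm Φ hΦ
      apply (ih (n / q) (by omega) Ψ (ZMod.castHom hm (ZMod (n / q)) g)).congr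
      intro w
      exact W_cast hm φ b Ψ w g
    · intro Φ hΦ g
      exact known_orth hφ hb g Φ hΦ

theorem core : Core := by
  intro α _ n _ φ hφ b Φ g
  rcases hφ b with hb | hb | hb
  · exact known_val_zero hφ hb g Φ
  · exact core_aux α φ hφ b hb n n le_rfl Φ g
  · have hφ' : ∀ x, (fun x => -φ x) x = 0 ∨ (fun x => -φ x) x = 1 ∨ (fun x => -φ x) x = -1 := by
      intro x
      have := hφ x
      simp only
      omega
    have h1 := core_aux α (fun x => -φ x) hφ' b (by rw [hb]; norm_num) n n le_rfl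
      (fun v => Φ (-v)) (-g)
    exact h1.congr fun w => W_neg φ b Φ w g

end Vale.Agent.P329.H211
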