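import Vale.Agent.P329.R3.H211.Exc

/-! The memory of the excursion automaton: direction, maximal level, labels of the levels. -/

set_option linter.all false

namespace Vale.Agent.P329.H211

open Vale.Agent.P329

/-- direction of the first step, maximal level reached, labels of the levels -/
abbrev Mem (n : ℕ) : Type := Bool × ZMod n × (ZMod n → Bool)

/-- empty memory -/
def me (n : ℕ) : Mem n := (false, 0, fun _ => false)

section

variable {α : Type} {n : ℕ} [NeZero n] (φ : α → ℤ) (b : α)

open Classical in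
/-- update of the memory when the walk steps to a nonzero value -/
noncomputable def mu (v : ZMod n) (m : Mem n) (x : α) : Mem n :=
  if (if v = 0 then decide (φ x = 1) else m.1) = true ∧ φ x = 1 ∧ v = m.2.1 then
    ((if v = 0 then decide (φ x = 1) else m.1), v + 1,
      Function.update m.2.2 (v + 1) (decide (x = b)))
  else ((if v = 0 then decide (φ x = 1) else m.1), m.2.1, m.2.2)

/-- the level of a state: representative of the value in the current excursion -/
def lev (v : ZMod n) (m : Mem n) : ℤ :=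
  if v = 0 then 0 else if m.1 = true then (v.val : ℤ) else (v.val : ℤ) - n

variable {φ b}

theorem lev_zero (m : Mem n) : lev 0 m = 0 := if_pos rfl
theorem lev_up {v : ZMod n} {m : Mem n} (h : v ≠ 0) (h1 : m.1 = true) :
    lev v m = v.val := by rw [lev, if_neg h, if_pos h1]
theorem lev_dn {v : ZMod n} {m : Mem n} (h : v ≠ 0) (h1 : m.1 = false) :
    lev v m = (v.val : ℤ) - n := by
  rw [lev, if_neg h, if_neg (by rw [h1]; exact Bool.false_ne_true)]

theorem mu_fst (v : ZMod n) (m : Mem n) (x : α) :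
    (mu φ b v m x).1 = if v = 0 then decide (φ x = 1) else m.1 := by
  unfold mu
  split_ifs <;> rfl

theorem mu_fst_ne {v : ZMod n} (h : v ≠ 0) (m : Mem n) (x : α) : (mu φ b v m x).1 = m.1 := by
  rw [mu_fst, if_neg h]

theorem mu_fst_zero (m : Mem n) (x : α) : (mu φ b 0 m x).1 = decide (φ x = 1) := by
  rw [mu_fst, if_pos rfl]

open Classical in
/-- new maximum -/
theorem mu_new {v : ZMod n} {m : Mem n} {x : α} (h : v = 0 ∨ m.1 = true) (h1 : φ x = 1)
    (h2 : v = m.2.1) : (mu φ b v m x).2.1 = v + 1 ∧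
      (mu φ b v m x).2.2 = Function.update m.2.2 (v + 1) (decide (x = b)) := by
  have h3 : (if v = 0 then decide (φ x = 1) else m.1) = true := by
    rcases h with h | h
    · rw [if_pos h]; exact decide_eq_true h1
    · split_ifs
      · exact decide_eq_true h1
      · exact h
  rw [mu, if_pos ⟨h3, h1, h2⟩]
  exact ⟨rfl, rfl⟩

theorem mu_old {v : ZMod n} {m : Mem n} {x : α} (h : ¬ (φ x = 1 ∧ v = m.2.1)) :
    (mu φ b v m x).2 = m.2 := by
  classical
  rw [mu, if_neg (fun h1 => h h1.2)]

theorem mu_dn {v : ZMod n} {m : Mem n} {x : α} (h : v ≠ 0) (h1 : m.1 = false) :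
    mu φ b v m x = m := by
  classical
  rw [mu, if_neg, if_neg h]
  rw [if_neg h, h1]
  exact fun h2 => Bool.false_ne_true h2.1

theorem mu_dn_zero {m : Mem n} {x : α} (h1 : φ x ≠ 1) : (mu φ b 0 m x).2 = m.2 :=
  mu_old (fun h => h1 h.1)

theorem hpot_mu (v : ZMod n) (m : Mem n) (x : α) (h0 : v ≠ 0) (h : v + (φ x : ZMod n) ≠ 0) :
    mu φ b v m x = m ∨ m.2.1.val < (mu φ b v m x).2.1.val := by
  classical
  by_cases h1 : m.1 = true ∧ φ x = 1 ∧ v = m.2.1
  · right
    rw [(mu_new (Or.inr h1.1) h1.2.1 h1.2.2).1, ← h1.2.2]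
    rw [h1.2.1, Int.cast_one] at h
    rw [val_add_one h]
    exact Nat.lt_succ_self _
  · left
    rw [mu, if_neg h0, if_neg h1]

theorem lev_step (hφ : ∀ x, φ x = 0 ∨ φ x = 1 ∨ φ x = -1) {v : ZMod n} {m : Mem n} {x : α}
    (h : v + (φ x : ZMod n) ≠ 0) :
    lev (v + (φ x : ZMod n)) (mu φ b v m x) = lev v m + φ x := by
  by_cases h0 : v = 0
  · subst h0
    rw [lev_zero, zero_add]
    rw [zero_add] at h ⊢
    rcases hφ x with h1 | h1 | h1
    · rw [h1, Int.cast_zero] at h; exact absurd rfl h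
    · have h2 : (mu φ b 0 m x).1 = true := by rw [mu_fst_zero]; exact decide_eq_true h1
      rw [lev_up h h2, h1]
      rw [h1, Int.cast_one] at h
      have h3 := val_add_one (v := (0 : ZMod n)) (by rwa [zero_add])
      rw [zero_add, ZMod.val_zero, zero_add] at h3
      rw [Int.cast_one, h3]; rfl
    · have h2 : (mu φ b 0 m x).1 = false := by
        rw [mu_fst_zero]; exact decide_eq_false (by rw [h1]; decide)
      rw [lev_dn h h2, h1]
      have h3 := val_add_one' (v := (-1 : ZMod n)) (by ring)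
      have h4 : (((-1 : ℤ) : ZMod n)) = -1 := by push_cast; ring
      rw [h4]
      omega
  · have h1 := val_step3 (hφ x) h0 h
    cases h2 : m.1
    · rw [lev_dn h (by rw [mu_fst_ne h0, h2]), lev_dn h0 h2]; linarith
    · rw [lev_up h (by rw [mu_fst_ne h0, h2]), lev_up h0 h2]; linarith

theorem run_lev (hφ : ∀ x, φ x = 0 ∨ φ x = 1 ∨ φ x = -1) {C : ZMod n → Mem n → α → Prop}
    {w : List α} : ∀ {s t : ZMod n × Mem n},
    run (exc φ (me n) (mu φ b) (fun v m x => lev v m + φ x = 0 ∧ C v m x)) s w = some t →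
    sm φ w = lev t.1 t.2 - lev s.1 s.2 := by
  induction w with
  | nil => intro s t h; cases h; simp [sm_nil]
  | cons x w ih =>
    intro s t h
    obtain ⟨s', h1, h2⟩ := run_cons_eq_some h
    rw [sm_cons, ih h2]
    rcases exc_some h1 with ⟨h3, rfl⟩ | ⟨h3, h4, rfl⟩
    · simp only
      rw [lev_step hφ h3]; ring
    · simp only
      rw [lev_zero]
      have := h4.1
      linarith

theorem noCyc_nw (hφ : ∀ x, φ x = 0 ∨ φ x = 1 ∨ φ x = -1) (C : ZMod n → Mem n → α → Prop) :
    NoCyc (exc φ (me n) (mu φ b) (fun v m x => lev v m + φ x = 0 ∧ C v m x)) := by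
  apply exc_noCyc hφ (fun m => m.2.1.val) (fun v m x h0 h => hpot_mu v m x h0 h)
  intro z k hk hz h
  have h1 := run_lev hφ h
  rw [sub_self, sm_pw] at h1
  rcases mul_eq_zero.mp h1 with h2 | h2
  · have : (k : ℤ) ≠ 0 := by exact_mod_cast hk.ne'
    exact this h2
  · rw [h2, Int.cast_zero] at hz; exact hz rfl

theorem noCyc_false (hφ : ∀ x, φ x = 0 ∨ φ x = 1 ∨ φ x = -1) :
    NoCyc (exc φ (me n) (mu φ b) (fun _ _ _ => False)) := by
  have h := noCyc_nw (n := n) (b := b) hφ (fun _ _ _ => False)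
  have h1 : (fun (v : ZMod n) (m : Mem n) (x : α) => lev v m + φ x = 0 ∧ False) =
      (fun _ _ _ => False) := by
    funext v m x
    simp
  rw [h1] at h
  exact h

end

end Vale.Agent.P329.H211
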