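import Vale.Agent.P329.R3.H211.Mem

/-! Returns with a full turn whose label is a fixed nonperiodic pattern: no cycles. -/

set_option linter.all false

namespace Vale.Agent.P329.H211

open Vale.Agent.P329

section hit

variable {α : Type} (φ : α → ℤ) (b : α)

open Classical in
/-- the label of the letter which first reaches the level `y` -/
noncomputable def hit : ℤ → List α → Option Bool
  | _, [] => none
  | y, x :: w => if φ x = y then some (decide (x = b)) else hit (y - φ x) w

variable {φ b}

theorem hit_append_some {u v : List α} {c : Bool} : ∀ {y : ℤ}, hit φ b y u = some c →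
    hit φ b y (u ++ v) = some c := by
  classical
  induction u with
  | nil => intro y h; rw [hit] at h; cases h
  | cons x u ih =>
    intro y h
    rw [List.cons_append, hit]
    rw [hit] at h
    split_ifs with h1
    · rw [if_pos h1] at h; exact h
    · rw [if_neg h1] at h; exact ih h

theorem hit_append_none {u v : List α} : ∀ {y : ℤ}, hit φ b y u = none →
    hit φ b y (u ++ v) = hit φ b (y - sm φ u) v := by
  classical
  induction u with
  | nil => intro y h; rw [List.nil_append, sm_nil, sub_zero]
  | cons x u ih =>
    intro y h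
    rw [List.cons_append, hit]
    rw [hit] at h
    split_ifs with h1
    · rw [if_pos h1] at h; cases h
    · rw [if_neg h1] at h
      rw [ih h, sm_cons, sub_sub]

theorem hit_far (hφ : ∀ x, φ x = 0 ∨ φ x = 1 ∨ φ x = -1) {u : List α} : ∀ {y : ℤ},
    (u.length : ℤ) < y → hit φ b y u = none := by
  classical
  induction u with
  | nil => intro y h; rfl
  | cons x u ih =>
    intro y h
    rw [List.length_cons] at h
    push_cast at h
    rw [hit]
    have h0 := hφ x
    rw [if_neg (by omega)]
    exact ih (by omega)

theorem hit_single_eq {x : α} {y : ℤ} (h : φ x = y) [Decidable (x = b)] :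
    hit φ b y [x] = some (decide (x = b)) := by
  rw [hit, if_pos h]
  congr

theorem hit_single_ne {x : α} {y : ℤ} (h : φ x ≠ y) : hit φ b y [x] = none := by
  rw [hit, if_neg h]; rfl

end hit

section wrap

variable {α : Type} {n : ℕ} [NeZero n] {φ : α → ℤ} {b : α}

open Classical in
/-- the label of a return -/
noncomputable def lab (b : α) (m : Mem n) (x : α) : ZMod n → Bool :=
  Function.update m.2.2 0 (decide (x = b))

/-- returns with a full turn and label `t` -/
def silw (φ : α → ℤ) (b : α) (t : ZMod n → Bool) (v : ZMod n) (m : Mem n) (x : α) : Prop :=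
  lev v m + φ x ≠ 0 ∧ lab b m x = t

/-- invariant along runs from the base -/
def Inv (φ : α → ℤ) (b : α) (t : ZMod n → Bool) (u : List α) (s : ZMod n × Mem n) : Prop :=
  (s.1 ≠ 0 ∧ s.2.1 = false ∧ s.2.2.2 = fun _ => false) ∨
  ((s.1 = 0 ∨ s.2.1 = true) ∧ (s.1 = 0 → s.2 = me n) ∧ s.1.val ≤ s.2.2.1.val ∧
    ∃ q : ℕ, sm φ u = q * n + s.1.val ∧
      (∀ y : ℕ, 1 ≤ y → y ≤ q * n → hit φ b y u = some (t y)) ∧
      (∀ y : ℕ, 1 ≤ y → y ≤ s.2.2.1.val → hit φ b ((q * n + y : ℕ) : ℤ) u = some (s.2.2.2 y)) ∧
      (∀ y : ℕ, q * n + s.2.2.1.val < y → hit φ b y u = none))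

theorem inv_nil (t : ZMod n → Bool) : Inv φ b t [] (0, me n) := by
  right
  refine ⟨Or.inl rfl, fun _ => rfl, ?_, 0, ?_, ?_, ?_, ?_⟩
  · exact le_refl _
  · simp [sm_nil]
  · intro y h1 h2; simp at h2; omega
  · intro y h1 h2
    have h3 : (me n).2.1 = 0 := rfl
    rw [h3, ZMod.val_zero] at h2; omega
  · intro y _; rfl

theorem inv_step (hφ : ∀ x, φ x = 0 ∨ φ x = 1 ∨ φ x = -1) (hn : 2 ≤ n) (hb : φ b = 1)
    {t : ZMod n → Bool} (ht : ∃ v, t v = true) {u : List α} {s s' : ZMod n × Mem n} {x : α}
    (hI : Inv φ b t u s) (h : exc φ (me n) (mu φ b) (silw φ b t) s x = some s') :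
    Inv φ b t (u ++ [x]) s' := by
  classical
  obtain ⟨v, m⟩ := s
  rcases hI with ⟨h0, h1, h2⟩ | ⟨hud, hbase, hle, q, hq, hA, hB, hC⟩
  · -- going down
    simp only at h0 h1 h2
    rcases exc_some h with ⟨h3, rfl⟩ | ⟨h3, h4, rfl⟩
    · left
      simp only at h3 ⊢
      rw [mu_dn h0 h1]
      exact ⟨h3, h1, h2⟩
    · exfalso
      simp only at h3 h4
      have hv : φ x = -1 := by
        have h5 := h4.1
        rw [lev_dn h0 h1] at h5
        rcases hφ x with h6 | h6 | h6
        · rw [h6, Int.cast_zero, add_zero] at h3; exact absurd h3 h0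
        · exfalso
          rw [h6, Int.cast_one] at h3
          have h7 := val_add_one' h3
          rw [h6] at h5
          apply h5
          have h8 : (v.val : ℤ) + 1 = n := by exact_mod_cast h7
          linarith
        · exact h6
      have hx : x ≠ b := by
        intro hx
        rw [hx, hb] at hv
        exact absurd hv (by decide)
      have h7 := h4.2
      obtain ⟨r, hr⟩ := ht
      rw [← h7, lab, h2, decide_eq_false hx] at hr
      by_cases hr0 : r = 0
      · rw [hr0, Function.update_self] at hr; exact Bool.false_ne_true hr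
      · rw [Function.update_of_ne hr0] at hr; exact Bool.false_ne_true hr
  · simp only at hud hbase hle hq hA hB hC
    have hmn : m.2.1.val < n := ZMod.val_lt _
    have hvn : v.val < n := ZMod.val_lt _
    rcases exc_some h with ⟨h3, rfl⟩ | ⟨h3, h4, rfl⟩
    · -- no return
      simp only at h3
      by_cases hd : v = 0 ∧ φ x ≠ 1
      · -- a step down from zero
        left
        obtain ⟨hv, hx⟩ := hd
        subst hv
        have hm := hbase rfl
        refine ⟨h3, ?_, ?_⟩
        · simp only; rw [mu_fst_zero]; exact decide_eq_false hx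
        · simp only; rw [mu_dn_zero hx, hm]; rfl
      · right
        have hup : (mu φ b v m x).1 = true := by
          by_cases hv : v = 0
          · subst hv
            rw [mu_fst_zero]
            by_contra h5
            apply hd
            refine ⟨rfl, fun h6 => h5 (decide_eq_true h6)⟩
          · rw [mu_fst_ne hv]; exact hud.resolve_left hv
        have hval : ((v + (φ x : ZMod n)).val : ℤ) = v.val + φ x := by
          by_cases hv : v = 0
          · subst hv
            have h5 : φ x = 1 := by
              by_contra h6; exact hd ⟨rfl, h6⟩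
            have h6 := lev_step (b := b) hφ (m := m) h3
            rw [lev_up h3 hup, lev_zero] at h6
            rw [h6, ZMod.val_zero]; simp
          · exact val_step3 (hφ x) hv h3
        by_cases hnew : φ x = 1 ∧ v = m.2.1
        · obtain ⟨h5, h6⟩ := hnew
          obtain ⟨h7, h8⟩ := mu_new (b := b) hud h5 h6
          have h9 : (v + 1).val = v.val + 1 := by
            rw [h5, Int.cast_one] at hval; exact_mod_cast hval
          have h10 : v.val + 1 < n := by rw [← h9]; exact ZMod.val_lt _
          have hcast : ((v.val + 1 : ℕ) : ZMod n) = v + 1 := by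
            rw [Nat.cast_add, ZMod.natCast_val, ZMod.cast_id', id, Nat.cast_one]
          have hMv : m.2.1.val = v.val := by rw [h6]
          refine ⟨Or.inr hup, fun h11 => absurd h11 h3, ?_, q, ?_, ?_, ?_, ?_⟩
          · simp only
            rw [h7, h5, Int.cast_one]
          · simp only
            rw [sm_append, sm_cons, sm_nil, hq, hval]; ring
          · intro y h11 h12
            exact hit_append_some (hA y h11 h12)
          · intro y h11 h12
            simp only at h12 ⊢
            rw [h7, h9] at h12
            rw [h8]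
            rcases Nat.lt_or_ge v.val y with h13 | h13
            · have h14 : y = v.val + 1 := by omega
              have h15 : hit φ b ((q * n + y : ℕ) : ℤ) u = none := hC _ (by omega)
              rw [hit_append_none h15, hq, h14, hcast, Function.update_self]
              rw [hit_single_eq]
              rw [h5]; push_cast; ring
            · have h14 : (y : ZMod n) ≠ v + 1 := by
                intro h15
                rw [← hcast] at h15
                have h16 := congrArg ZMod.val h15
                rw [ZMod.val_cast_of_lt (by omega), ZMod.val_cast_of_lt h10] at h16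
                omega
              rw [Function.update_of_ne h14]
              exact hit_append_some (hB y h11 (by omega))
          · intro y h11
            simp only at h11
            rw [h7, h9] at h11
            have h15 : hit φ b (y : ℤ) u = none := hC _ (by omega)
            rw [hit_append_none h15, hq, hit_single_ne]
            rw [h5]; omega
        · have h8 : (mu φ b v m x).2 = m.2 := mu_old hnew
          have hkey : ¬ (φ x = 1 ∧ v.val = m.2.1.val) := by
            intro h9
            exact hnew ⟨h9.1, ZMod.val_injective n h9.2⟩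
          have hφx := hφ x
          refine ⟨Or.inr hup, fun h11 => absurd h11 h3, ?_, q, ?_, ?_, ?_, ?_⟩
          · simp only
            rw [h8]
            omega
          · simp only
            rw [sm_append, sm_cons, sm_nil, hq, hval]; ring
          · intro y h11 h12
            exact hit_append_some (hA y h11 h12)
          · intro y h11 h12
            simp only at h12 ⊢
            rw [h8] at h12 ⊢
            exact hit_append_some (hB y h11 h12)
          · intro y h11
            simp only at h11
            rw [h8] at h11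
            have h15 : hit φ b (y : ℤ) u = none := hC _ h11
            rw [hit_append_none h15, hq, hit_single_ne]
            have h16 : (q * n + m.2.1.val : ℤ) < y := by exact_mod_cast h11
            omega
    · -- a return
      simp only at h3 h4
      obtain ⟨hw, hl⟩ := h4
      right
      have hv : v ≠ 0 := by
        intro hv
        subst hv
        rw [lev_zero, zero_add] at hw
        rw [zero_add] at h3
        rcases hφ x with h5 | h5 | h5
        · exact hw h5
        · rw [h5, Int.cast_one] at h3
          have := val_add_one' (v := (0 : ZMod n)) (by rw [zero_add]; exact h3)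
          rw [ZMod.val_zero] at this; omega
        · rw [h5] at h3
          have h6 : (0 : ZMod n) + 1 = 0 := by
            have h7 : (((-1 : ℤ)) : ZMod n) = -1 := by push_cast; ring
            rw [h7] at h3
            rw [zero_add, ← neg_neg (1 : ZMod n), h3, neg_zero]
          have := val_add_one' h6
          rw [ZMod.val_zero] at this; omega
      have hd := hud.resolve_left hv
      rw [lev_up hv hd] at hw
      have hx : φ x = 1 := by
        rcases hφ x with h5 | h5 | h5
        · rw [h5, Int.cast_zero, add_zero] at h3; exact absurd h3 hv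
        · exact h5
        · exfalso
          rw [h5] at h3 hw
          have h7 : (((-1 : ℤ)) : ZMod n) = -1 := by push_cast; ring
          rw [h7] at h3
          have h8 : v = 1 := by rw [← sub_eq_zero, sub_eq_add_neg]; exact h3
          have h9 := val_sub_one hv
          rw [h8, sub_self, ZMod.val_zero] at h9
          rw [h8] at hw
          apply hw
          rw [← h9]; rfl
      rw [hx, Int.cast_one] at h3
      have hvv := val_add_one' h3
      have hM : m.2.1.val = v.val := by omega
      have hM' : v.val + 1 = n := hvv
      have hcast : ((n : ℕ) : ZMod n) = 0 := ZMod.natCast_self n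
      refine ⟨Or.inl rfl, fun _ => rfl, ?_, q + 1, ?_, ?_, ?_, ?_⟩
      · exact le_refl _
      · simp only
        rw [sm_append, sm_cons, sm_nil, hq, hx, ZMod.val_zero]
        push_cast
        have : (v.val : ℤ) + 1 = n := by exact_mod_cast hvv
        linarith
      · intro y h11 h12
        rw [add_mul, one_mul] at h12
        rcases Nat.lt_or_ge (q * n) y with h13 | h13
        · obtain ⟨y', rfl⟩ : ∃ y', y = q * n + y' := ⟨y - q * n, by omega⟩
          have hyc : (((q * n + y' : ℕ)) : ZMod n) = (y' : ZMod n) := by
            rw [Nat.cast_add, Nat.cast_mul, hcast, mul_zero, zero_add]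
          rw [hyc]
          rcases Nat.lt_or_ge y' n with h14 | h14
          · have h15 := hB y' (by omega) (by omega)
            rw [hit_append_some h15]
            have h16 : (y' : ZMod n) ≠ 0 := by
              intro h17
              have h18 := congrArg ZMod.val h17
              rw [ZMod.val_cast_of_lt h14, ZMod.val_zero] at h18
              omega
            rw [← hl, lab, Function.update_of_ne h16]
          · have h15 : y' = n := by omega
            subst h15
            have h16 : hit φ b ((q * y' + y' : ℕ) : ℤ) u = none := hC _ (by omega)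
            rw [hit_append_none h16, hq, hcast, ← hl, lab, Function.update_self, hit_single_eq]
            rw [hx]
            push_cast
            have : (v.val : ℤ) + 1 = y' := by exact_mod_cast hvv
            linarith
        · exact hit_append_some (hA y h11 h13)
      · intro y h11 h12
        have h13 : (me n).2.1 = 0 := rfl
        simp only at h12
        rw [h13, ZMod.val_zero] at h12; omega
      · intro y h11
        have h13 : (me n).2.1 = 0 := rfl
        simp only at h11
        rw [h13, ZMod.val_zero, add_mul, one_mul, add_zero] at h11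
        have h15 : hit φ b (y : ℤ) u = none := hC _ (by omega)
        rw [hit_append_none h15, hq, hit_single_ne]
        rw [hx]
        have h16 : ((q : ℤ) * n + n : ℤ) < y := by exact_mod_cast h11
        omega

theorem inv_run (hφ : ∀ x, φ x = 0 ∨ φ x = 1 ∨ φ x = -1) (hn : 2 ≤ n) (hb : φ b = 1)
    {t : ZMod n → Bool} (ht : ∃ v, t v = true) (u : List α) : ∀ s : ZMod n × Mem n,
    run (exc φ (me n) (mu φ b) (silw φ b t)) (0, me n) u = some s → Inv φ b t u s := by
  induction u using List.reverseRecOn with
  | nil => intro s h; cases h; exact inv_nil t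
  | append_singleton u x ih =>
    intro s h
    obtain ⟨s', h1, h2⟩ := run_append_eq_some h
    obtain ⟨s'', h3, h4⟩ := run_cons_eq_some h2
    cases h4
    exact inv_step hφ hn hb ht (ih s' h1) h3

theorem pw_add (i j : ℕ) (z : List α) : pw (i + j) z = pw i z ++ pw j z := by
  induction i with
  | zero => rw [Nat.zero_add, pw_zero, List.nil_append]
  | succ i ih => rw [Nat.succ_add, pw_succ, pw_succ, ih, List.append_assoc]

theorem run_pw_mul {σ : Type} {δ : σ → α → Option σ} {s : σ} {k : ℕ} {z : List α}
    (h : run δ s (pw k z) = some s) (j : ℕ) : run δ s (pw (j * k) z) = some s := by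
  induction j with
  | zero => rw [Nat.zero_mul, pw_zero]; rfl
  | succ j ih => rw [Nat.succ_mul, pw_add, run_append _ ih, h]

/-- a nonzero period gives a period `n / q` -/
theorem period {t : ZMod n → Bool} {g : ℕ} (hg : ((g : ℕ) : ZMod n) ≠ 0)
    (h : ∀ v, t (v + (g : ZMod n)) = t v) :
    ∃ q : ℕ, q.Prime ∧ q ∣ n ∧ ∀ v, t (v + ((n / q : ℕ) : ZMod n)) = t v := by
  have hn : 0 < n := Nat.pos_of_ne_zero (NeZero.ne n)
  have hmul : ∀ (k : ℕ) v, t (v + k * (g : ZMod n)) = t v := by
    intro k
    induction k with
    | zero => intro v; simp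
    | succ k ih =>
      intro v
      have : v + ((k + 1 : ℕ) : ZMod n) * (g : ZMod n) = (v + g) + k * (g : ZMod n) := by
        push_cast; ring
      rw [this, ih, h]
  have hd : n.gcd g ∣ n := Nat.gcd_dvd_left _ _
  obtain ⟨c, hc⟩ := hd
  have hc1 : c ≠ 1 := by
    intro h1
    rw [h1, mul_one] at hc
    apply hg
    rw [ZMod.natCast_eq_zero_iff]
    rw [hc]
    exact Nat.gcd_dvd_right _ _
  obtain ⟨q, hq, hqc⟩ := Nat.exists_prime_and_dvd hc1
  obtain ⟨e, he⟩ := hqc
  refine ⟨q, hq, ⟨n.gcd g * e, by rw [← mul_assoc, mul_comm q, mul_assoc, ← he]; exact hc⟩, ?_⟩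
  have h2 : n / q = n.gcd g * e := by
    apply Nat.div_eq_of_eq_mul_left hq.pos
    rw [mul_assoc, mul_comm e q, ← he]; exact hc
  have h3 : ((n.gcd g : ℕ) : ZMod n) = (g.gcdA n : ZMod n) * g := by
    have h4 := Nat.gcd_eq_gcd_ab g n
    have h5 := congrArg (fun (i : ℤ) => (i : ZMod n)) h4
    simp only [Int.cast_add, Int.cast_mul, Int.cast_natCast, ZMod.natCast_self, zero_mul,
      add_zero] at h5
    rw [Nat.gcd_comm, h5, mul_comm]
  intro v
  rw [h2, Nat.cast_mul, h3]
  have h6 : ((g.gcdA n : ZMod n) * g * (e : ZMod n)) =
      ((((g.gcdA n : ZMod n) * (e : ZMod n)).val : ℕ) : ZMod n) * g := by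
    rw [ZMod.natCast_val, ZMod.cast_id', id]; ring
  rw [h6, hmul]

theorem noCyc_wrap (hφ : ∀ x, φ x = 0 ∨ φ x = 1 ∨ φ x = -1) (hb : φ b = 1)
    {t : ZMod n → Bool}
    (ht : ¬ ∃ q : ℕ, q.Prime ∧ q ∣ n ∧ ∀ v, t (v + ((n / q : ℕ) : ZMod n)) = t v) :
    NoCyc (exc φ (me n) (mu φ b) (silw φ b t)) := by
  apply exc_noCyc hφ (fun m => m.2.1.val) (fun v m x h0 h => hpot_mu v m x h0 h)
  intro z k hk hz h
  have hn0 : 0 < n := Nat.pos_of_ne_zero (NeZero.ne n)
  have hn : 2 ≤ n := by
    rcases Nat.lt_or_ge n 2 with h1 | h1
    · exfalso
      have h2 : n = 1 := by omega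
      subst h2
      exact hz (Subsingleton.elim _ _)
    · exact h1
  have ht1 : ∃ v, t v = true := by
    by_contra h1
    push Not at h1
    obtain ⟨q, hq, hqn⟩ := Nat.exists_prime_and_dvd (show n ≠ 1 by omega)
    apply ht
    refine ⟨q, hq, hqn, fun v => ?_⟩
    have h2 : ∀ v, t v = false := fun v => by
      cases h3 : t v
      · rfl
      · exact absurd h3 (h1 v)
    rw [h2, h2]
  have hinv : ∀ j : ℕ, ∃ q : ℕ, ((j * k : ℕ) : ℤ) * sm φ z = q * n ∧
      ∀ y : ℕ, 1 ≤ y → y ≤ q * n → hit φ b y (pw (j * k) z) = some (t y) := by
    intro j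
    rcases inv_run hφ hn hb ht1 _ _ (run_pw_mul h j) with h1 | ⟨_, _, _, q, hq, hA, _, _⟩
    · exact absurd rfl h1.1
    · refine ⟨q, ?_, hA⟩
      rw [← sm_pw, hq]
      simp
  have hpos : 0 < sm φ z := by
    obtain ⟨q, hq, _⟩ := hinv 1
    rw [one_mul] at hq
    have h1 : sm φ z ≠ 0 := by
      intro h2; rw [h2, Int.cast_zero] at hz; exact hz rfl
    have h2 : (0 : ℤ) ≤ (k : ℤ) * sm φ z := by rw [hq]; positivity
    have h3 : (0 : ℤ) < k := by exact_mod_cast hk
    have h4 : 0 ≤ sm φ z := by
      by_contra h5
      push Not at h5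
      nlinarith
    omega
  obtain ⟨g, hg⟩ : ∃ g : ℕ, sm φ z = g := ⟨(sm φ z).toNat, by omega⟩
  have hg0 : 0 < g := by omega
  rw [hg] at hz
  rw [Int.cast_natCast] at hz
  apply ht
  apply period hz
  intro v
  -- a large power
  obtain ⟨q, hq, hA⟩ := hinv (n * (z.length + 3) + 1)
  set K := (n * (z.length + 3) + 1) * k with hK
  have hKge : n * (z.length + 3) + 1 ≤ K := Nat.le_mul_of_pos_right _ hk
  have hq' : K * g = q * n := by
    rw [hg] at hq
    exact_mod_cast hq
  set y := v.val + n * (z.length + 1) with hy
  have hvn : v.val < n := ZMod.val_lt v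
  have hy1 : 1 ≤ y := by
    have : 0 < n * (z.length + 1) := by positivity
    omega
  have hyz : z.length < y := by
    have h1 : z.length + 1 ≤ n * (z.length + 1) := Nat.le_mul_of_pos_left _ hn0
    omega
  have hyK : y + g ≤ K * g := by
    obtain ⟨K', hK'⟩ : ∃ K', K = K' + 1 := ⟨K - 1, by omega⟩
    have h1 : n * (z.length + 3) ≤ K' := by omega
    have h2 : y ≤ n * (z.length + 3) := by
      rw [hy]; nlinarith
    rw [hK', Nat.succ_mul]
    have h3 : K' ≤ K' * g := Nat.le_mul_of_pos_right _ hg0
    omega
  have hcy : ((y : ℕ) : ZMod n) = v := by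
    rw [hy, Nat.cast_add, Nat.cast_mul, ZMod.natCast_self, zero_mul, add_zero,
      ZMod.natCast_val, ZMod.cast_id', id]
  have h1 := hA y hy1 (by omega)
  have h2 := hA (y + g) (by omega) (by omega)
  obtain ⟨K', hK'⟩ : ∃ K', K = K' + 1 := ⟨K - 1, by omega⟩
  rw [hK'] at h1 h2
  rw [pw_succ'] at h1
  rw [pw_succ, hit_append_none, hg] at h2
  · have h3 : (((y + g : ℕ) : ℤ) - (g : ℤ)) = (y : ℤ) := by push_cast; ring
    rw [h3] at h2
    rw [hit_append_some h2] at h1
    have h4 := Option.some.inj h1
    rw [Nat.cast_add, hcy] at h4
    exact h4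
  · apply hit_far hφ
    push_cast
    have : (z.length : ℤ) < y := by exact_mod_cast hyz
    have h5 : (0 : ℤ) ≤ g := by positivity
    linarith

end wrap

end Vale.Agent.P329.H211
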